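import Mathlib

/-!
# P207, N3 (P1a): the inverse of a small perturbation of the identity of a Banach space
-/

open Set Filter Topology Metric
open scoped ContDiff

noncomputable section

namespace Vale.Agent.P207.N3.H248

theorem exists_inv {Y : Type} [NormedAddCommGroup Y] [NormedSpace ℝ Y] [CompleteSpace Y]
    {G : Y → Y} {ρ θ : ℝ} (hρ : 0 < ρ) (hθ : θ < 1) (hG : ContDiffOn ℝ ∞ G (ball 0 ρ))
    (h0 : G 0 = 0) (hd : ∀ y ∈ ball (0 : Y) ρ, ‖fderiv ℝ G y‖ ≤ θ) :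
    ∃ ε > 0, ∃ z : Y → Y, ContDiffOn ℝ ∞ z (ball 0 ε) ∧ z 0 = 0 ∧
      ∀ x ∈ ball (0 : Y) ε, z x ∈ ball (0 : Y) ρ ∧ z x = x + G (z x) := by
  set H : Y → Y := fun y => y - G y with hH
  have hGd : ∀ y ∈ ball (0 : Y) ρ, HasFDerivAt G (fderiv ℝ G y) y := fun y hy =>
    ((hG.contDiffAt (isOpen_ball.mem_nhds hy)).differentiableAt (by simp)).hasFDerivAt
  have hHc : ∀ y ∈ ball (0 : Y) ρ, ContDiffAt ℝ ∞ H y := fun y hy =>
    contDiffAt_id.sub (hG.contDiffAt (isOpen_ball.mem_nhds hy))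
  have hLE : ∀ y ∈ ball (0 : Y) ρ, ∃ L : Y ≃L[ℝ] Y, HasFDerivAt H (L : Y →L[ℝ] Y) y := by
    intro y hy
    have h1 : ‖fderiv ℝ G y‖ < 1 := (hd y hy).trans_lt hθ
    refine ⟨ContinuousLinearEquiv.unitsEquiv ℝ Y (Units.oneSub (fderiv ℝ G y) h1), ?_⟩
    have h2 : HasFDerivAt H (ContinuousLinearMap.id ℝ Y - fderiv ℝ G y) y :=
      (hasFDerivAt_id y).sub (hGd y hy)
    exact h2
  have h0b : (0 : Y) ∈ ball (0 : Y) ρ := mem_ball_self hρ
  obtain ⟨L0, hL0⟩ := hLE 0 h0b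
  have hstrict : HasStrictFDerivAt H (L0 : Y →L[ℝ] Y) 0 :=
    (hHc 0 h0b).hasStrictFDerivAt' hL0 (by simp)
  set e0 := hstrict.toOpenPartialHomeomorph H with he0
  set e := e0.restrOpen (ball 0 ρ) isOpen_ball with he
  have heH : ∀ q, e q = H q := fun q => rfl
  have hsrc : ∀ q, q ∈ e.source → q ∈ ball (0 : Y) ρ := by
    intro q hq
    rw [he, OpenPartialHomeomorph.restrOpen_source] at hq
    exact hq.2
  have h0s : (0 : Y) ∈ e.source := by
    rw [he, OpenPartialHomeomorph.restrOpen_source]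
    exact ⟨hstrict.mem_toOpenPartialHomeomorph_source, h0b⟩
  have hH0 : H 0 = 0 := by simp [hH, h0]
  have ht : (0 : Y) ∈ e.target := by
    have := e.map_source h0s
    rwa [heH, hH0] at this
  have hsymm : ∀ y ∈ e.target, ContDiffAt ℝ ∞ e.symm y := by
    intro y hy
    have hys := hsrc _ (e.map_target hy)
    obtain ⟨L, hL⟩ := hLE _ hys
    exact e.contDiffAt_symm hy (f₀' := L) hL (hHc _ hys)
  obtain ⟨ε, hε, hεt⟩ := Metric.isOpen_iff.1 e.open_target 0 ht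
  refine ⟨ε, hε, e.symm, fun y hy => (hsymm y (hεt hy)).contDiffWithinAt, ?_, fun x hx => ?_⟩
  · have := e.left_inv h0s
    rwa [heH, hH0] at this
  · refine ⟨hsrc _ (e.map_target (hεt hx)), ?_⟩
    have h1 : H (e.symm x) = x := e.right_inv (hεt hx)
    have h2 : e.symm x - G (e.symm x) = x := h1
    exact (sub_eq_iff_eq_add).1 h2

end Vale.Agent.P207.N3.H248
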