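import Mathlib

/-!
# P207, N3 (P1a): superposition operators on bounded continuous functions
-/

open Set Filter Topology Metric
open scoped ContDiff BoundedContinuousFunction

noncomputable section

namespace Vale.Agent.P207.N3.H248

variable {Q : Type} [TopologicalSpace Q]

/-- `n q` is smooth on the ball of radius `ρ`, all derivatives are bounded and jointly
continuous. -/
structure NH {E F : Type} [NormedAddCommGroup E] [NormedSpace ℝ E] [NormedAddCommGroup F]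
    [NormedSpace ℝ F] (n : Q → E → F) (ρ : ℝ) : Prop where
  smooth : ∀ q, ContDiffOn ℝ ∞ (n q) (ball 0 ρ)
  cont : ∀ k : ℕ, ContinuousOn (fun p : Q × E => iteratedFDeriv ℝ k (n p.1) p.2)
    (univ ×ˢ ball 0 ρ)
  bdd : ∀ k : ℕ, ∃ C, ∀ q, ∀ z ∈ ball (0 : E) ρ, ‖iteratedFDeriv ℝ k (n q) z‖ ≤ C

section

variable {E F : Type} [NormedAddCommGroup E] [NormedSpace ℝ E] [NormedAddCommGroup F]
  [NormedSpace ℝ F] {n : Q → E → F} {ρ : ℝ}

theorem NH.fderiv (h : NH n ρ) : NH (fun q z => fderiv ℝ (n q) z) ρ where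
  smooth q := (h.smooth q).fderiv_of_isOpen isOpen_ball (by simp)
  cont k := by
    have h1 := h.cont (k + 1)
    have h2 : ∀ p : Q × E, iteratedFDeriv ℝ k (fun z => _root_.fderiv ℝ (n p.1) z) p.2
        = (continuousMultilinearCurryRightEquiv' ℝ k E F)
          (iteratedFDeriv ℝ (k + 1) (n p.1) p.2) := by
      intro p
      rw [iteratedFDeriv_succ_eq_comp_right]
      simp
    simp only [h2]
    exact (LinearIsometryEquiv.continuous _).comp_continuousOn h1
  bdd k := by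
    obtain ⟨C, hC⟩ := h.bdd (k + 1)
    refine ⟨C, fun q z hz => ?_⟩
    rw [norm_iteratedFDeriv_fderiv]
    exact hC q z hz

theorem NH.contAt (h : NH n ρ) : ContinuousOn (fun p : Q × E => n p.1 p.2)
    (univ ×ˢ ball 0 ρ) := by
  have h1 := h.cont 0
  have h2 : (fun p : Q × E => n p.1 p.2) =
      fun p : Q × E => (continuousMultilinearCurryFin0 ℝ E F)
        (iteratedFDeriv ℝ 0 (n p.1) p.2) := by
    funext p
    simp [iteratedFDeriv_zero_eq_comp]
  rw [h2]
  exact (LinearIsometryEquiv.continuous _).comp_continuousOn h1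

theorem NH.bd0 (h : NH n ρ) : ∃ C, ∀ q, ∀ z ∈ ball (0 : E) ρ, ‖n q z‖ ≤ C := by
  obtain ⟨C, hC⟩ := h.bdd 0
  exact ⟨C, fun q z hz => by simpa using hC q z hz⟩

theorem NH.hasFDerivAt (h : NH n ρ) (q : Q) {z : E} (hz : z ∈ ball (0 : E) ρ) :
    HasFDerivAt (n q) (_root_.fderiv ℝ (n q) z) z :=
  (((h.smooth q).contDiffAt (isOpen_ball.mem_nhds hz)).differentiableAt (by simp)).hasFDerivAt

open Classical in
/-- the superposition operator -/
def nem (n : Q → E → F) (Z : Q →ᵇ E) : Q →ᵇ F :=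
  if h : Continuous (fun q => n q (Z q)) ∧ ∃ C, ∀ q, ‖n q (Z q)‖ ≤ C then
    BoundedContinuousFunction.ofNormedAddCommGroup _ h.1 _ h.2.choose_spec else 0

omit [NormedSpace ℝ E] in
theorem mem_ball_apply {Z : Q →ᵇ E} (hZ : Z ∈ ball (0 : Q →ᵇ E) ρ) (q : Q) :
    Z q ∈ ball (0 : E) ρ := by
  rw [mem_ball_zero_iff] at hZ ⊢
  exact (Z.norm_coe_le_norm q).trans_lt hZ

theorem nem_apply (h : NH n ρ) {Z : Q →ᵇ E} (hZ : Z ∈ ball (0 : Q →ᵇ E) ρ) (q : Q) :
    nem n Z q = n q (Z q) := by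
  have h1 : Continuous (fun q => n q (Z q)) ∧ ∃ C, ∀ q, ‖n q (Z q)‖ ≤ C := by
    refine ⟨?_, ?_⟩
    · have h2 : Continuous fun q : Q => ((q, Z q) : Q × E) := by fun_prop
      rw [← continuousOn_univ] at h2 ⊢
      exact h.contAt.comp h2 fun q _ => ⟨mem_univ _, mem_ball_apply hZ q⟩
    · obtain ⟨C, hC⟩ := h.bd0
      exact ⟨C, fun q => hC q _ (mem_ball_apply hZ q)⟩
  rw [nem, dif_pos h1]
  rfl

theorem app_bd (A : Q →ᵇ (E →L[ℝ] F)) (h : Q →ᵇ E) (q : Q) : ‖A q (h q)‖ ≤ ‖A‖ * ‖h‖ :=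
  ((A q).le_opNorm _).trans (mul_le_mul (A.norm_coe_le_norm q)
    (h.norm_coe_le_norm q) (norm_nonneg _) (norm_nonneg A))

/-- pointwise application -/
def app (A : Q →ᵇ (E →L[ℝ] F)) (h : Q →ᵇ E) : Q →ᵇ F :=
  BoundedContinuousFunction.ofNormedAddCommGroup
    (fun q => A q (h q)) (A.continuous.clm_apply h.continuous) (‖A‖ * ‖h‖) (app_bd A h)

theorem app_apply (A : Q →ᵇ (E →L[ℝ] F)) (h : Q →ᵇ E) (q : Q) : app A h q = A q (h q) := rfl

theorem norm_app_le (A : Q →ᵇ (E →L[ℝ] F)) (h : Q →ᵇ E) : ‖app A h‖ ≤ ‖A‖ * ‖h‖ :=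
  (BoundedContinuousFunction.norm_le (mul_nonneg (norm_nonneg A) (norm_nonneg h))).2
    (app_bd A h)

/-- pointwise application, with a fixed field of operators -/
def appR (A : Q →ᵇ (E →L[ℝ] F)) : (Q →ᵇ E) →L[ℝ] (Q →ᵇ F) :=
  LinearMap.mkContinuous
    { toFun := fun h => app A h
      map_add' := fun h k => by ext q; simp [app_apply]
      map_smul' := fun c h => by ext q; simp [app_apply] } ‖A‖ (norm_app_le A)

theorem appR_apply (A : Q →ᵇ (E →L[ℝ] F)) (h : Q →ᵇ E) (q : Q) : appR A h q = A q (h q) := rfl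

variable (Q E F) in
/-- pointwise application as a bounded bilinear map -/
def appB : (Q →ᵇ (E →L[ℝ] F)) →L[ℝ] (Q →ᵇ E) →L[ℝ] (Q →ᵇ F) :=
  LinearMap.mkContinuous
    { toFun := fun A => appR A
      map_add' := fun A B => by ext h q; simp [appR_apply]
      map_smul' := fun c A => by ext h q; simp [appR_apply] } 1 (fun A => by
    rw [one_mul]
    exact ContinuousLinearMap.opNorm_le_bound _ (norm_nonneg A) (norm_app_le A))

theorem appB_apply (A : Q →ᵇ (E →L[ℝ] F)) (h : Q →ᵇ E) (q : Q) :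
    appB Q E F A h q = A q (h q) := rfl

theorem NH.taylor (h : NH n ρ) : ∃ C, 0 ≤ C ∧ ∀ q, ∀ z ∈ ball (0 : E) ρ,
    ∀ w ∈ ball (0 : E) ρ,
    ‖n q w - n q z - _root_.fderiv ℝ (n q) z (w - z)‖ ≤ C * ‖w - z‖ * ‖w - z‖ := by
  obtain ⟨C, hC⟩ := h.fderiv.fderiv.bd0
  refine ⟨max C 0, le_max_right _ _, fun q z hz w hw => ?_⟩
  have hseg : segment ℝ z w ⊆ ball 0 ρ := (convex_ball _ _).segment_subset hz hw
  have key : ∀ y ∈ segment ℝ z w, ‖_root_.fderiv ℝ (n q) y - _root_.fderiv ℝ (n q) z‖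
      ≤ max C 0 * ‖w - z‖ := by
    intro y hy
    have h1 : ‖_root_.fderiv ℝ (n q) y - _root_.fderiv ℝ (n q) z‖ ≤ max C 0 * ‖y - z‖ :=
      (convex_ball (0 : E) ρ).norm_image_sub_le_of_norm_hasFDerivWithin_le
        (f := fun y => _root_.fderiv ℝ (n q) y)
        (f' := fun y => _root_.fderiv ℝ (fun y => _root_.fderiv ℝ (n q) y) y)
        (fun y hy => (h.fderiv.hasFDerivAt q hy).hasFDerivWithinAt)
        (fun y hy => (hC q y hy).trans (le_max_left _ _)) hz (hseg hy)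
    refine h1.trans (mul_le_mul_of_nonneg_left ?_ (le_max_right _ _))
    rw [segment_eq_image'] at hy
    obtain ⟨θ, hθ, rfl⟩ := hy
    rw [add_sub_cancel_left, norm_smul, Real.norm_eq_abs, abs_of_nonneg hθ.1]
    exact mul_le_of_le_one_left (norm_nonneg _) hθ.2
  exact (convex_segment z w).norm_image_sub_le_of_norm_hasFDerivWithin_le'
    (fun y hy => (h.hasFDerivAt q (hseg hy)).hasFDerivWithinAt) key (left_mem_segment _ _ _)
    (right_mem_segment _ _ _)

theorem hasFDerivAt_nem (h : NH n ρ) {Z : Q →ᵇ E} (hZ : Z ∈ ball (0 : Q →ᵇ E) ρ) :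
    HasFDerivAt (nem n) (appB Q E F (nem (fun q z => _root_.fderiv ℝ (n q) z) Z)) Z := by
  obtain ⟨C, hC0, hC⟩ := h.taylor
  rw [hasFDerivAt_iff_isLittleO_nhds_zero]
  have h1 : ∀ᶠ k : Q →ᵇ E in 𝓝 0, ‖nem n (Z + k) - nem n Z -
      appB Q E F (nem (fun q z => _root_.fderiv ℝ (n q) z) Z) k‖ ≤ C * ‖k‖ * ‖k‖ := by
    have h2 : ∀ᶠ k : Q →ᵇ E in 𝓝 0, Z + k ∈ ball (0 : Q →ᵇ E) ρ := by
      have h3 : Continuous fun k : Q →ᵇ E => Z + k := by fun_prop
      have h4 := h3.continuousAt (x := 0)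
      refine h4.eventually (isOpen_ball.mem_nhds ?_)
      simpa using hZ
    filter_upwards [h2] with k hk
    refine (BoundedContinuousFunction.norm_le (by positivity)).2 fun q => ?_
    have h5 := hC q (Z q) (mem_ball_apply hZ q) ((Z + k) q) (mem_ball_apply hk q)
    have h6 : ‖k q‖ ≤ ‖k‖ := k.norm_coe_le_norm q
    have h7 : (Z + k) q - Z q = k q := by simp
    rw [h7] at h5
    simp only [BoundedContinuousFunction.coe_sub, Pi.sub_apply, appB_apply,
      nem_apply h hk, nem_apply h hZ, nem_apply h.fderiv hZ]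
    refine h5.trans ?_
    gcongr
  refine Asymptotics.IsLittleO.of_bound fun c hc => ?_
  have h8 : ∀ᶠ k : Q →ᵇ E in 𝓝 0, C * ‖k‖ ≤ c := by
    have h9 : Continuous fun k : Q →ᵇ E => C * ‖k‖ := by fun_prop
    have h10 := h9.tendsto 0
    rw [norm_zero, mul_zero] at h10
    exact (h10.eventually (gt_mem_nhds hc)).mono fun k hk => hk.le
  filter_upwards [h1, h8] with k hk hk2
  exact hk.trans (mul_le_mul_of_nonneg_right hk2 (norm_nonneg _))

end

theorem contDiffOn_nem_nat {E : Type} [NormedAddCommGroup E] [NormedSpace ℝ E] {ρ : ℝ}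
    (k : ℕ) : ∀ (F : Type) [NormedAddCommGroup F] [NormedSpace ℝ F] (n : Q → E → F),
    NH n ρ → ContDiffOn ℝ k (nem n) (ball 0 ρ) := by
  induction k with
  | zero =>
    intro F _ _ n h
    rw [CharP.cast_eq_zero, contDiffOn_zero]
    exact fun Z hZ => (hasFDerivAt_nem h hZ).continuousAt.continuousWithinAt
  | succ k ih =>
    intro F _ _ n h
    rw [show ((k + 1 : ℕ) : WithTop ℕ∞) = (k : WithTop ℕ∞) + 1 by simp,
      contDiffOn_succ_iff_fderiv_of_isOpen isOpen_ball]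
    refine ⟨fun Z hZ => (hasFDerivAt_nem h hZ).differentiableAt.differentiableWithinAt,
      by simp, ?_⟩
    refine ContDiffOn.congr (f := fun Z => appB Q E F
      (nem (fun q z => _root_.fderiv ℝ (n q) z) Z)) ?_ fun Z hZ => (hasFDerivAt_nem h hZ).fderiv
    exact (appB Q E F).contDiff.comp_contDiffOn (ih _ _ h.fderiv)

theorem contDiffOn_nem {E F : Type} [NormedAddCommGroup E] [NormedSpace ℝ E]
    [NormedAddCommGroup F] [NormedSpace ℝ F] {n : Q → E → F} {ρ : ℝ} (h : NH n ρ) :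
    ContDiffOn ℝ ∞ (nem n) (ball 0 ρ) :=
  contDiffOn_infty.2 fun k => contDiffOn_nem_nat k F n h

end Vale.Agent.P207.N3.H248
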