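import Mathlib

/-!
# P207, N3 (P1a): the two scalar integral operators on the past
-/

open Set Filter Topology Metric MeasureTheory
open scoped ContDiff BoundedContinuousFunction

noncomputable section

namespace Vale.Agent.P207.N3.H248

/-- the past -/
abbrev Tm : Type := Iic (0 : ℝ)

/-- clamping of a time to the past -/
def cl (s : ℝ) : Tm := ⟨min s 0, mem_Iic.2 (min_le_right _ _)⟩

theorem continuous_cl : Continuous cl := by
  unfold cl
  fun_prop

theorem cl_coe (t : Tm) : cl (t : ℝ) = t := Subtype.ext (min_eq_left (mem_Iic.1 t.2))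

theorem cl_of_nonpos {s : ℝ} (h : s ≤ 0) : (cl s : ℝ) = s := min_eq_left h

section scalar

variable {E : Type} [NormedAddCommGroup E] [NormedSpace ℝ E] [CompleteSpace E]
  {Λ C : ℝ} {m : ℝ → E}

/-- `∫_{-∞}^t e^{-Λ (t - s)} m s ds` -/
def opW (Λ : ℝ) (m : ℝ → E) (t : ℝ) : E :=
  Real.exp (-(Λ * t)) • ((∫ s in Iic (0 : ℝ), Real.exp (Λ * s) • m s)
    + ∫ s in (0 : ℝ)..t, Real.exp (Λ * s) • m s)

/-- `-∫_t^0 e^{Λ (t - s)} m s ds` -/
def opU (Λ : ℝ) (m : ℝ → E) (t : ℝ) : E :=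
  Real.exp (Λ * t) • ∫ s in (0 : ℝ)..t, Real.exp (-(Λ * s)) • m s

theorem hasDerivAt_opW (hm : Continuous m) (t : ℝ) :
    HasDerivAt (opW Λ m) (-(Λ • opW Λ m t) + m t) t := by
  have hc : Continuous fun s => Real.exp (Λ * s) • m s := by fun_prop
  have h1 : HasDerivAt (fun t => ∫ s in (0 : ℝ)..t, Real.exp (Λ * s) • m s)
      (Real.exp (Λ * t) • m t) t :=
    intervalIntegral.integral_hasDerivAt_right (hc.intervalIntegrable _ _)
      (hc.stronglyMeasurableAtFilter _ _) hc.continuousAt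
  have h2 : HasDerivAt (fun t : ℝ => Real.exp (-(Λ * t))) (Real.exp (-(Λ * t)) * (-(Λ * 1))) t :=
    (((hasDerivAt_id t).const_mul Λ).neg).exp
  have h3 := h2.smul (h1.const_add (∫ s in Iic (0 : ℝ), Real.exp (Λ * s) • m s))
  refine h3.congr_deriv ?_
  have h4 : Real.exp (-(Λ * t)) * Real.exp (Λ * t) = 1 := by
    rw [← Real.exp_add]; simp
  rw [opW, smul_smul, h4, one_smul, add_comm]
  congr 1
  rw [mul_one, smul_smul, ← neg_smul]
  congr 1
  ring

theorem hasDerivAt_opU (hm : Continuous m) (t : ℝ) :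
    HasDerivAt (opU Λ m) (Λ • opU Λ m t + m t) t := by
  have hc : Continuous fun s => Real.exp (-(Λ * s)) • m s := by fun_prop
  have h1 : HasDerivAt (fun t => ∫ s in (0 : ℝ)..t, Real.exp (-(Λ * s)) • m s)
      (Real.exp (-(Λ * t)) • m t) t :=
    intervalIntegral.integral_hasDerivAt_right (hc.intervalIntegrable _ _)
      (hc.stronglyMeasurableAtFilter _ _) hc.continuousAt
  have h2 : HasDerivAt (fun t : ℝ => Real.exp (Λ * t)) (Real.exp (Λ * t) * (Λ * 1)) t :=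
    ((hasDerivAt_id t).const_mul Λ).exp
  have h3 := h2.smul h1
  refine h3.congr_deriv ?_
  have h4 : Real.exp (Λ * t) * Real.exp (-(Λ * t)) = 1 := by
    rw [← Real.exp_add]; simp
  rw [opU, smul_smul, h4, one_smul, add_comm]
  congr 1
  rw [mul_one, smul_smul]
  congr 1
  ring

omit [CompleteSpace E] in
theorem integrableOn_exp_smul (hΛ : 0 < Λ) (hm : Continuous m) (hb : ∀ s, ‖m s‖ ≤ C) (t : ℝ) :
    IntegrableOn (fun s => Real.exp (Λ * s) • m s) (Iic t) := by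
  have h1 : IntegrableOn (fun s => Real.exp (Λ * s) * C) (Iic t) :=
    (integrableOn_exp_mul_Iic hΛ t).mul_const C
  refine Integrable.mono' h1 (by
    have hc : Continuous fun s => Real.exp (Λ * s) • m s := by fun_prop
    exact hc.aestronglyMeasurable) (Eventually.of_forall fun s => ?_)
  rw [norm_smul, Real.norm_of_nonneg (Real.exp_pos _).le]
  exact mul_le_mul_of_nonneg_left (hb s) (Real.exp_pos _).le

omit [CompleteSpace E] in
theorem norm_opW_le (hΛ : 0 < Λ) (hm : Continuous m) (hb : ∀ s, ‖m s‖ ≤ C) (t : ℝ) :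
    ‖opW Λ m t‖ ≤ Λ⁻¹ * C := by
  have h1 := intervalIntegral.integral_Iic_sub_Iic (integrableOn_exp_smul hΛ hm hb 0)
    (integrableOn_exp_smul hΛ hm hb t)
  rw [opW, ← h1, add_sub_cancel, norm_smul, Real.norm_of_nonneg (Real.exp_pos _).le]
  have h2 : ‖∫ s in Iic t, Real.exp (Λ * s) • m s‖ ≤ ∫ s in Iic t, Real.exp (Λ * s) * C := by
    refine norm_integral_le_of_norm_le ((integrableOn_exp_mul_Iic hΛ t).mul_const C)
      (Eventually.of_forall fun s => ?_)
    rw [norm_smul, Real.norm_of_nonneg (Real.exp_pos _).le]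
    exact mul_le_mul_of_nonneg_left (hb s) (Real.exp_pos _).le
  rw [integral_mul_const, integral_exp_mul_Iic hΛ] at h2
  refine (mul_le_mul_of_nonneg_left h2 (Real.exp_pos _).le).trans (le_of_eq ?_)
  have h4 : Real.exp (-(Λ * t)) * Real.exp (Λ * t) = 1 := by
    rw [← Real.exp_add]; simp
  rw [← mul_assoc, mul_div_assoc', h4, one_div]

omit [CompleteSpace E] in
theorem norm_opU_le (hΛ : 0 < Λ) (hb : ∀ s, ‖m s‖ ≤ C) {t : ℝ} (ht : t ≤ 0) :
    ‖opU Λ m t‖ ≤ Λ⁻¹ * C := by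
  have hC : 0 ≤ C := (norm_nonneg _).trans (hb 0)
  rw [opU, intervalIntegral.integral_symm, smul_neg, norm_neg, norm_smul,
    Real.norm_of_nonneg (Real.exp_pos _).le]
  have hc : Continuous fun s : ℝ => Real.exp (-(Λ * s)) * C := by fun_prop
  have h2 : ‖∫ s in t..0, Real.exp (-(Λ * s)) • m s‖ ≤ ∫ s in t..0, Real.exp (-(Λ * s)) * C := by
    refine intervalIntegral.norm_integral_le_of_norm_le ht (Eventually.of_forall fun s _ => ?_)
      (hc.intervalIntegrable _ _)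
    rw [norm_smul, Real.norm_of_nonneg (Real.exp_pos _).le]
    exact mul_le_mul_of_nonneg_left (hb s) (Real.exp_pos _).le
  have h3 : ∫ s in t..0, Real.exp (-(Λ * s)) * C = -(Λ⁻¹ * C) - -(Λ⁻¹ * (Real.exp (-(Λ * t)) * C)) := by
    have h5 : ∀ s : ℝ, HasDerivAt (fun s : ℝ => -(Λ⁻¹ * (Real.exp (-(Λ * s)) * C)))
        (Real.exp (-(Λ * s)) * C) s := by
      intro s
      have h6 : HasDerivAt (fun t : ℝ => Real.exp (-(Λ * t)))
          (Real.exp (-(Λ * s)) * (-(Λ * 1))) s := (((hasDerivAt_id s).const_mul Λ).neg).exp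
      refine (((h6.mul_const C).const_mul Λ⁻¹).neg).congr_deriv ?_
      field_simp
    rw [intervalIntegral.integral_eq_sub_of_hasDerivAt (fun s _ => h5 s)
      (hc.intervalIntegrable _ _)]
    simp
  rw [h3] at h2
  refine (mul_le_mul_of_nonneg_left h2 (Real.exp_pos _).le).trans ?_
  have h4 : Real.exp (Λ * t) * Real.exp (-(Λ * t)) = 1 := by
    rw [← Real.exp_add]; simp
  have h7 : Real.exp (Λ * t) * (-(Λ⁻¹ * C) - -(Λ⁻¹ * (Real.exp (-(Λ * t)) * C)))
      = Λ⁻¹ * C * (Real.exp (Λ * t) * Real.exp (-(Λ * t))) - Real.exp (Λ * t) * (Λ⁻¹ * C) := by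
    ring
  rw [h7, h4, mul_one]
  have : 0 ≤ Real.exp (Λ * t) * (Λ⁻¹ * C) := by positivity
  linarith

omit [CompleteSpace E] in
/-- a function on the past with vanishing derivative is constant -/
theorem eq_of_deriv_zero {h : ℝ → E} (hd : ∀ t ≤ 0, HasDerivWithinAt h 0 (Iic 0) t) {t : ℝ}
    (ht : t ≤ 0) : h t = h 0 := by
  have h1 := (convex_Iic (0 : ℝ)).norm_image_sub_le_of_norm_hasDerivWithin_le (f := h)
    (f' := fun _ => 0) (C := 0) (fun x hx => hd x hx) (fun x _ => by simp) (x := 0) (y := t)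
    (by simp) ht
  rw [zero_mul] at h1
  exact sub_eq_zero.1 (norm_le_zero_iff.1 h1)

theorem eq_opW (hΛ : 0 < Λ) (hm : Continuous m) (hb : ∀ s, ‖m s‖ ≤ C) {w : ℝ → E} {D : ℝ}
    (hw : ∀ t ≤ 0, HasDerivWithinAt w (-(Λ • w t) + m t) (Iic 0) t)
    (hD : ∀ t ≤ 0, ‖w t‖ ≤ D) {t : ℝ} (ht : t ≤ 0) : w t = opW Λ m t := by
  set h : ℝ → E := fun t => Real.exp (Λ * t) • (w t - opW Λ m t) with hh
  have hd : ∀ t ≤ 0, HasDerivWithinAt h 0 (Iic 0) t := by
    intro t ht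
    have h2 : HasDerivAt (fun t : ℝ => Real.exp (Λ * t)) (Real.exp (Λ * t) * (Λ * 1)) t :=
      ((hasDerivAt_id t).const_mul Λ).exp
    have h3 := h2.hasDerivWithinAt (s := Iic 0) |>.smul
      ((hw t ht).sub (hasDerivAt_opW (Λ := Λ) hm t).hasDerivWithinAt)
    refine h3.congr_deriv ?_
    rw [mul_one, Pi.sub_apply]
    module
  have hconst : ∀ t ≤ 0, h t = h 0 := fun t ht => eq_of_deriv_zero hd ht
  have hbd : ∀ t ≤ 0, ‖h 0‖ ≤ Real.exp (Λ * t) * (D + Λ⁻¹ * C) := by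
    intro t ht
    rw [← hconst t ht, hh]
    simp only
    rw [norm_smul, Real.norm_of_nonneg (Real.exp_pos _).le]
    refine mul_le_mul_of_nonneg_left ?_ (Real.exp_pos _).le
    exact (norm_sub_le _ _).trans (add_le_add (hD t ht) (norm_opW_le hΛ hm hb t))
  have hlim : Tendsto (fun t : ℝ => Real.exp (Λ * t) * (D + Λ⁻¹ * C)) atBot (𝓝 0) := by
    have h1 : Tendsto (fun t : ℝ => Λ * t) atBot atBot := tendsto_id.const_mul_atBot hΛ
    have h2 := (Real.tendsto_exp_atBot.comp h1).mul_const (D + Λ⁻¹ * C)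
    rwa [zero_mul] at h2
  have h0 : ‖h 0‖ ≤ 0 := ge_of_tendsto hlim
    ((eventually_le_atBot 0).mono fun t ht => hbd t ht)
  have h5 : h t = 0 := by rw [hconst t ht]; exact norm_le_zero_iff.1 h0
  rw [hh] at h5
  simp only [smul_eq_zero, (Real.exp_pos _).ne', false_or] at h5
  exact sub_eq_zero.1 h5

theorem eq_opU (hm : Continuous m) {u : ℝ → E}
    (hu : ∀ t ≤ 0, HasDerivWithinAt u (Λ • u t + m t) (Iic 0) t) {t : ℝ} (ht : t ≤ 0) :
    u t = Real.exp (Λ * t) • u 0 + opU Λ m t := by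
  set h : ℝ → E := fun t => Real.exp (-(Λ * t)) • (u t - opU Λ m t) with hh
  have hd : ∀ t ≤ 0, HasDerivWithinAt h 0 (Iic 0) t := by
    intro t ht
    have h2 : HasDerivAt (fun t : ℝ => Real.exp (-(Λ * t)))
        (Real.exp (-(Λ * t)) * (-(Λ * 1))) t := (((hasDerivAt_id t).const_mul Λ).neg).exp
    have h3 := h2.hasDerivWithinAt (s := Iic 0) |>.smul
      ((hu t ht).sub (hasDerivAt_opU (Λ := Λ) hm t).hasDerivWithinAt)
    refine h3.congr_deriv ?_
    rw [mul_one, Pi.sub_apply]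
    module
  have h1 := eq_of_deriv_zero hd ht
  have h0 : h 0 = u 0 := by simp [hh, opU]
  rw [h0, hh] at h1
  simp only at h1
  rw [← h1, smul_smul, ← Real.exp_add]
  simp

end scalar

section param

variable {K : Type} [TopologicalSpace K] [FirstCountableTopology K]
  {E : Type} [NormedAddCommGroup E] [NormedSpace ℝ E] [CompleteSpace E]

/-- the function of time -/
def ex (Z : (K × Tm) →ᵇ E) (x : K) (s : ℝ) : E := Z (x, cl s)

omit [FirstCountableTopology K] [NormedSpace ℝ E] [CompleteSpace E] in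
theorem continuous_ex (Z : (K × Tm) →ᵇ E) : Continuous fun p : K × ℝ => ex Z p.1 p.2 := by
  unfold ex
  have := continuous_cl
  fun_prop

omit [FirstCountableTopology K] [NormedSpace ℝ E] [CompleteSpace E] in
theorem norm_ex_le (Z : (K × Tm) →ᵇ E) (x : K) (s : ℝ) : ‖ex Z x s‖ ≤ ‖Z‖ :=
  Z.norm_coe_le_norm _

omit [FirstCountableTopology K] [NormedSpace ℝ E] [CompleteSpace E] in
theorem cont_ex (Z : (K × Tm) →ᵇ E) (x : K) : Continuous (ex Z x) :=
  (continuous_ex Z).comp (Continuous.prodMk_right x)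

omit [FirstCountableTopology K] [CompleteSpace E] in
theorem continuous_opU (Λ : ℝ) (Z : (K × Tm) →ᵇ E) :
    Continuous fun p : K × Tm => opU Λ (ex Z p.1) p.2 := by
  unfold opU
  have h1 := continuous_ex Z
  have h2 : Continuous fun p : K × Tm =>
      ∫ s in (0 : ℝ)..(p.2 : ℝ), Real.exp (-(Λ * s)) • ex Z p.1 s := by
    refine intervalIntegral.continuous_parametric_intervalIntegral_of_continuous
      (f := fun (p : K × Tm) s => Real.exp (-(Λ * s)) • ex Z p.1 s) ?_ (by fun_prop)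
    have h3 : Continuous fun q : (K × Tm) × ℝ => ex Z q.1.1 q.2 :=
      h1.comp (by fun_prop : Continuous fun q : (K × Tm) × ℝ => (q.1.1, q.2))
    simp only [Function.uncurry_def]
    fun_prop
  fun_prop

omit [CompleteSpace E] in
theorem continuous_opW {Λ : ℝ} (hΛ : 0 < Λ) (Z : (K × Tm) →ᵇ E) :
    Continuous fun p : K × Tm => opW Λ (ex Z p.1) p.2 := by
  unfold opW
  have h1 := continuous_ex Z
  have h2 : Continuous fun p : K × Tm =>
      ∫ s in (0 : ℝ)..(p.2 : ℝ), Real.exp (Λ * s) • ex Z p.1 s := by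
    refine intervalIntegral.continuous_parametric_intervalIntegral_of_continuous
      (f := fun (p : K × Tm) s => Real.exp (Λ * s) • ex Z p.1 s) ?_ (by fun_prop)
    have h3 : Continuous fun q : (K × Tm) × ℝ => ex Z q.1.1 q.2 :=
      h1.comp (by fun_prop : Continuous fun q : (K × Tm) × ℝ => (q.1.1, q.2))
    simp only [Function.uncurry_def]
    fun_prop
  have h4 : Continuous fun x : K => ∫ s in Iic (0 : ℝ), Real.exp (Λ * s) • ex Z x s := by
    refine continuous_of_dominated (bound := fun s => Real.exp (Λ * s) * ‖Z‖)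
      (fun x => ?_) (fun x => Eventually.of_forall fun s => ?_)
      ((integrableOn_exp_mul_Iic hΛ 0).mul_const _) (Eventually.of_forall fun s => ?_)
    · have hc : Continuous fun s => Real.exp (Λ * s) • ex Z x s := by
        have := cont_ex Z x
        fun_prop
      exact hc.aestronglyMeasurable
    · rw [norm_smul, Real.norm_of_nonneg (Real.exp_pos _).le]
      exact mul_le_mul_of_nonneg_left (norm_ex_le Z x s) (Real.exp_pos _).le
    · exact (h1.comp (Continuous.prodMk_left s)).const_smul _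
  have h5 : Continuous fun p : K × Tm =>
      ∫ s in Iic (0 : ℝ), Real.exp (Λ * s) • ex Z p.1 s := h4.comp continuous_fst
  fun_prop

/-- `opU` on bounded continuous functions -/
def oU {Λ : ℝ} (hΛ : 0 < Λ) (Z : (K × Tm) →ᵇ E) : (K × Tm) →ᵇ E :=
  BoundedContinuousFunction.ofNormedAddCommGroup
    (fun p : K × Tm => opU Λ (ex Z p.1) p.2) (continuous_opU Λ Z) (Λ⁻¹ * ‖Z‖)
    (fun p => norm_opU_le hΛ (norm_ex_le Z p.1) p.2.2)

omit [FirstCountableTopology K] [CompleteSpace E] in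
theorem oU_apply {Λ : ℝ} (hΛ : 0 < Λ) (Z : (K × Tm) →ᵇ E) (x : K) (t : Tm) :
    oU hΛ Z (x, t) = opU Λ (ex Z x) t := rfl

omit [FirstCountableTopology K] [CompleteSpace E] in
theorem norm_oU_le {Λ : ℝ} (hΛ : 0 < Λ) (Z : (K × Tm) →ᵇ E) : ‖oU hΛ Z‖ ≤ Λ⁻¹ * ‖Z‖ :=
  (BoundedContinuousFunction.norm_le (mul_nonneg (inv_nonneg.2 hΛ.le) (norm_nonneg Z))).2
    fun p => norm_opU_le hΛ (norm_ex_le Z p.1) p.2.2

omit [FirstCountableTopology K] [CompleteSpace E] in
theorem oU_add {Λ : ℝ} (hΛ : 0 < Λ) (Z Y : (K × Tm) →ᵇ E) :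
    oU hΛ (Z + Y) = oU hΛ Z + oU hΛ Y := by
  ext ⟨x, t⟩
  have hc : ∀ Z : (K × Tm) →ᵇ E, Continuous fun s =>
      Real.exp (-(Λ * s)) • ex Z x s := fun Z => by
    have := cont_ex Z x
    fun_prop
  have h1 : ∀ s, Real.exp (-(Λ * s)) • ex (Z + Y) x s
      = Real.exp (-(Λ * s)) • ex Z x s + Real.exp (-(Λ * s)) • ex Y x s := fun s => by
    rw [← smul_add]; rfl
  rw [BoundedContinuousFunction.coe_add, Pi.add_apply, oU_apply, oU_apply, oU_apply]
  simp only [opU, h1]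
  rw [← smul_add, intervalIntegral.integral_add ((hc Z).intervalIntegrable _ _)
    ((hc Y).intervalIntegrable _ _)]

omit [FirstCountableTopology K] [CompleteSpace E] in
theorem oU_smul {Λ : ℝ} (hΛ : 0 < Λ) (c : ℝ) (Z : (K × Tm) →ᵇ E) :
    oU hΛ (c • Z) = c • oU hΛ Z := by
  ext ⟨x, t⟩
  have h1 : ∀ s, Real.exp (-(Λ * s)) • ex (c • Z) x s
      = c • (Real.exp (-(Λ * s)) • ex Z x s) := fun s => by
    rw [smul_comm c]; rfl
  change opU Λ (ex (c • Z) x) t = c • opU Λ (ex Z x) t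
  simp only [opU, h1]
  rw [intervalIntegral.integral_smul, smul_comm c]

/-- `opW` on bounded continuous functions -/
def oW {Λ : ℝ} (hΛ : 0 < Λ) (Z : (K × Tm) →ᵇ E) : (K × Tm) →ᵇ E :=
  BoundedContinuousFunction.ofNormedAddCommGroup
    (fun p : K × Tm => opW Λ (ex Z p.1) p.2) (continuous_opW hΛ Z) (Λ⁻¹ * ‖Z‖)
    (fun p => norm_opW_le hΛ (cont_ex Z p.1) (norm_ex_le Z p.1) p.2)

omit [CompleteSpace E] in
theorem oW_apply {Λ : ℝ} (hΛ : 0 < Λ) (Z : (K × Tm) →ᵇ E) (x : K) (t : Tm) :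
    oW hΛ Z (x, t) = opW Λ (ex Z x) t := rfl

omit [CompleteSpace E] in
theorem norm_oW_le {Λ : ℝ} (hΛ : 0 < Λ) (Z : (K × Tm) →ᵇ E) : ‖oW hΛ Z‖ ≤ Λ⁻¹ * ‖Z‖ :=
  (BoundedContinuousFunction.norm_le (mul_nonneg (inv_nonneg.2 hΛ.le) (norm_nonneg Z))).2
    fun p => norm_opW_le hΛ (cont_ex Z p.1) (norm_ex_le Z p.1) p.2

omit [CompleteSpace E] in
theorem oW_add {Λ : ℝ} (hΛ : 0 < Λ) (Z Y : (K × Tm) →ᵇ E) :
    oW hΛ (Z + Y) = oW hΛ Z + oW hΛ Y := by
  ext ⟨x, t⟩
  have hc : ∀ Z : (K × Tm) →ᵇ E, Continuous fun s =>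
      Real.exp (Λ * s) • ex Z x s := fun Z => by
    have := cont_ex Z x
    fun_prop
  have h1 : ∀ s, Real.exp (Λ * s) • ex (Z + Y) x s
      = Real.exp (Λ * s) • ex Z x s + Real.exp (Λ * s) • ex Y x s := fun s => by
    rw [← smul_add]; rfl
  rw [BoundedContinuousFunction.coe_add, Pi.add_apply, oW_apply, oW_apply, oW_apply]
  simp only [opW, h1]
  rw [← smul_add, intervalIntegral.integral_add ((hc Z).intervalIntegrable _ _)
    ((hc Y).intervalIntegrable _ _),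
    integral_add (integrableOn_exp_smul hΛ (cont_ex Z x) (norm_ex_le Z x) 0)
      (integrableOn_exp_smul hΛ (cont_ex Y x) (norm_ex_le Y x) 0)]
  congr 1
  abel

omit [CompleteSpace E] in
theorem oW_smul {Λ : ℝ} (hΛ : 0 < Λ) (c : ℝ) (Z : (K × Tm) →ᵇ E) :
    oW hΛ (c • Z) = c • oW hΛ Z := by
  ext ⟨x, t⟩
  have h1 : ∀ s, Real.exp (Λ * s) • ex (c • Z) x s
      = c • (Real.exp (Λ * s) • ex Z x s) := fun s => by
    rw [smul_comm c]; rfl
  change opW Λ (ex (c • Z) x) t = c • opW Λ (ex Z x) t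
  simp only [opW, h1]
  rw [intervalIntegral.integral_smul, integral_smul, ← smul_add, smul_comm c]

variable (K E) in
omit [FirstCountableTopology K] in
/-- `opU` as a bounded operator -/
def OU {Λ : ℝ} (hΛ : 0 < Λ) : ((K × Tm) →ᵇ E) →L[ℝ] ((K × Tm) →ᵇ E) :=
  LinearMap.mkContinuous
    { toFun := fun Z => oU hΛ Z
      map_add' := oU_add hΛ
      map_smul' := oU_smul hΛ } Λ⁻¹ (norm_oU_le hΛ)

variable (K E) in
/-- `opW` as a bounded operator -/
def OW {Λ : ℝ} (hΛ : 0 < Λ) : ((K × Tm) →ᵇ E) →L[ℝ] ((K × Tm) →ᵇ E) :=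
  LinearMap.mkContinuous
    { toFun := fun Z => oW hΛ Z
      map_add' := oW_add hΛ
      map_smul' := oW_smul hΛ } Λ⁻¹ (norm_oW_le hΛ)

omit [FirstCountableTopology K] [CompleteSpace E] in
theorem OU_apply {Λ : ℝ} (hΛ : 0 < Λ) (Z : (K × Tm) →ᵇ E) (x : K) (t : Tm) :
    OU K E hΛ Z (x, t) = opU Λ (ex Z x) t := rfl

omit [CompleteSpace E] in
theorem OW_apply {Λ : ℝ} (hΛ : 0 < Λ) (Z : (K × Tm) →ᵇ E) (x : K) (t : Tm) :
    OW K E hΛ Z (x, t) = opW Λ (ex Z x) t := rfl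

omit [FirstCountableTopology K] [CompleteSpace E] in
theorem OU_norm_le {Λ : ℝ} (hΛ : 0 < Λ) (Z : (K × Tm) →ᵇ E) : ‖OU K E hΛ Z‖ ≤ Λ⁻¹ * ‖Z‖ :=
  norm_oU_le hΛ Z

omit [CompleteSpace E] in
theorem OW_norm_le {Λ : ℝ} (hΛ : 0 < Λ) (Z : (K × Tm) →ᵇ E) : ‖OW K E hΛ Z‖ ≤ Λ⁻¹ * ‖Z‖ :=
  norm_oW_le hΛ Z

end param

end Vale.Agent.P207.N3.H248
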