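import Mathlib

/-!
# P207, N3 (P1a): continuity of maps into finite dimensional spaces of multilinear maps is
pointwise
-/

open Set Filter Topology Metric
open scoped ContDiff

noncomputable section

namespace Vale.Agent.P207.N3.H248

variable {E F : Type} [NormedAddCommGroup E] [NormedSpace ℝ E] [FiniteDimensional ℝ E]
  [NormedAddCommGroup F] [NormedSpace ℝ F] [FiniteDimensional ℝ F]

/-- evaluation on the tuples of basis vectors -/
def evB (k : ℕ) : (E [×k]→L[ℝ] F) →ₗ[ℝ] ((Fin k → Fin (Module.finrank ℝ E)) → F) where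
  toFun T i := T fun j => Module.finBasis ℝ E (i j)
  map_add' S T := by ext i; simp
  map_smul' c T := by ext i; simp

omit [FiniteDimensional ℝ F] in
theorem evB_injective (k : ℕ) : Function.Injective (evB (E := E) (F := F) k) := by
  intro S T h
  apply ContinuousMultilinearMap.toMultilinearMap_injective
  refine Module.Basis.ext_multilinear (fun _ => Module.finBasis ℝ E) fun v => ?_
  exact congrFun h v

theorem finDim_multi (k : ℕ) : FiniteDimensional ℝ (E [×k]→L[ℝ] F) :=
  FiniteDimensional.of_injective (evB k) (evB_injective k)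

theorem continuousOn_multi {Y : Type} [TopologicalSpace Y] {k : ℕ} {s : Set Y}
    {h : Y → E [×k]→L[ℝ] F} (hh : ∀ v, ContinuousOn (fun y => h y v) s) : ContinuousOn h s := by
  have := finDim_multi (E := E) (F := F) k
  have h1 : IsClosedEmbedding (evB (E := E) (F := F) k) :=
    LinearMap.isClosedEmbedding_of_injective (LinearMap.ker_eq_bot.2 (evB_injective k))
  rw [h1.isInducing.continuousOn_iff]
  exact continuousOn_pi.2 fun i => hh _

/-- joint continuity of the derivatives of `ξ ↦ ℓ x (W ξ)` -/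
theorem cont_iter {K Y : Type} [TopologicalSpace K] [NormedAddCommGroup Y] [NormedSpace ℝ Y]
    {ℓ : K → Y →L[ℝ] F} (hℓ : Continuous fun p : K × Y => ℓ p.1 p.2) {W : E → Y} {ε : ℝ}
    (hW : ContDiffOn ℝ ∞ W (ball 0 ε)) (k : ℕ) :
    ContinuousOn (fun p : K × E => iteratedFDeriv ℝ k (fun ξ => ℓ p.1 (W ξ)) p.2)
      (univ ×ˢ ball 0 ε) := by
  have hk : (k : WithTop ℕ∞) ≤ ∞ := by exact_mod_cast (le_top : (k : ℕ∞) ≤ ⊤)
  have h1 : ∀ p ∈ ((univ : Set K) ×ˢ ball (0 : E) ε),
      iteratedFDeriv ℝ k (fun ξ => ℓ p.1 (W ξ)) p.2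
      = (ℓ p.1).compContinuousMultilinearMap (iteratedFDeriv ℝ k W p.2) := fun p hp =>
    (ℓ p.1).iteratedFDeriv_comp_left (i := k) (f := W)
      (hW.contDiffAt (isOpen_ball.mem_nhds hp.2)) hk
  refine ContinuousOn.congr ?_ h1
  refine continuousOn_multi fun v => ?_
  have h3 : ContinuousOn (fun ξ => iteratedFDeriv ℝ k W ξ) (ball 0 ε) := by
    have h4 := hW.continuousOn_iteratedFDerivWithin (m := k) hk isOpen_ball.uniqueDiffOn
    refine h4.congr fun ξ hξ => ?_
    exact (iteratedFDerivWithin_of_isOpen k isOpen_ball hξ).symm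
  have h5 : ContinuousOn (fun p : K × E => (p.1, iteratedFDeriv ℝ k W p.2 v))
      (univ ×ˢ ball 0 ε) := by
    refine continuousOn_fst.prodMk ?_
    have h6 : ContinuousOn (fun ξ => iteratedFDeriv ℝ k W ξ v) (ball 0 ε) :=
      (continuous_eval_const v).comp_continuousOn h3
    exact h6.comp continuousOn_snd fun p hp => hp.2
  exact hℓ.comp_continuousOn h5

end Vale.Agent.P207.N3.H248
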