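import Vale.Agent.P207.N3.H248.Nem
import Vale.Agent.P207.N3.H248.Inv
import Vale.Agent.P207.N3.H248.Ops
import Vale.Agent.P207.N3.H248.Pw

/-!
# P207, N3 (P1a): the uniform unstable manifold theorem for `u'' = f (φ t x) (u, u')`
-/

open Set Filter Topology Metric
open scoped ContDiff BoundedContinuousFunction

noncomputable section

namespace Vale.Agent.P207.N3.H248

/-- The data: a flow on `K`, an unstable solution `U` of the Riccati equation, and a second order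
equation `u'' = f (φ t x) (u, u')` whose linearisation at `0` is `u'' = -R u`. -/
structure USys (K E : Type) [TopologicalSpace K] [NormedAddCommGroup E] [NormedSpace ℝ E] where
  φ : ℝ → K → K
  φ_zero : ∀ x, φ 0 x = x
  φ_cont : Continuous fun p : ℝ × K => φ p.1 p.2
  U : K → E →L[ℝ] E
  R : K → E →L[ℝ] E
  U_cont : Continuous U
  R_cont : Continuous R
  χ : ℝ
  Λ : ℝ
  χ_pos : 0 < χ
  Λ_pos : 0 < Λ
  U_le : ∀ x, ‖Λ • ContinuousLinearMap.id ℝ E - U x‖ ≤ Λ - χ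
  riccati : ∀ x t, HasDerivAt (fun t => U (φ t x)) (-(U (φ t x) ∘L U (φ t x)) - R (φ t x)) t
  f : K → E × E → E
  ρ : ℝ
  ρ_pos : 0 < ρ
  f_smooth : ∀ x, ContDiffOn ℝ ∞ (f x) (ball 0 ρ)
  f_cont : ∀ k : ℕ, ContinuousOn (fun p : K × (E × E) => iteratedFDeriv ℝ k (f p.1) p.2)
    (univ ×ˢ ball 0 ρ)
  f_zero : ∀ x, f x 0 = 0
  f_deriv : ∀ x a b, fderiv ℝ (f x) 0 (a, b) = -(R x a)

namespace USys

variable {K E : Type} [TopologicalSpace K] [CompactSpace K] [FirstCountableTopology K]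
  [NormedAddCommGroup E] [NormedSpace ℝ E] [FiniteDimensional ℝ E] (S : USys K E)

/-- the point of the orbit -/
def ph (p : K × Tm) : K := S.φ p.2 p.1

omit [CompactSpace K] [FirstCountableTopology K] [FiniteDimensional ℝ E] in
theorem continuous_ph : Continuous S.ph := by
  unfold ph
  exact S.φ_cont.comp (by fun_prop : Continuous fun p : K × Tm => ((p.2 : ℝ), p.1))

/-- `U` along the orbits -/
def UU : (K × Tm) →ᵇ (E →L[ℝ] E) :=
  (BoundedContinuousFunction.mkOfCompact ⟨S.U, S.U_cont⟩).compContinuous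
    ⟨S.ph, S.continuous_ph⟩

/-- `R` along the orbits -/
def RR : (K × Tm) →ᵇ (E →L[ℝ] E) :=
  (BoundedContinuousFunction.mkOfCompact ⟨S.R, S.R_cont⟩).compContinuous
    ⟨S.ph, S.continuous_ph⟩

/-- `Λ - U` along the orbits -/
def dd : (K × Tm) →ᵇ (E →L[ℝ] E) :=
  BoundedContinuousFunction.const (K × Tm) (S.Λ • ContinuousLinearMap.id ℝ E) - S.UU

omit [FirstCountableTopology K] [FiniteDimensional ℝ E] in
theorem dd_apply (q : K × Tm) :
    S.dd q = S.Λ • ContinuousLinearMap.id ℝ E - S.U (S.ph q) := rfl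

omit [FirstCountableTopology K] [FiniteDimensional ℝ E] in
theorem UU_apply (q : K × Tm) : S.UU q = S.U (S.ph q) := rfl

omit [FirstCountableTopology K] [FiniteDimensional ℝ E] in
theorem RR_apply (q : K × Tm) : S.RR q = S.R (S.ph q) := rfl

omit [FirstCountableTopology K] [FiniteDimensional ℝ E] in
theorem norm_dd (q : K × Tm) : ‖S.dd q‖ ≤ S.Λ - S.χ := S.U_le _

/-- the nonlinearity along the orbits -/
def nn (q : K × Tm) (z : E × E) : E := S.f (S.ph q) z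

omit [FirstCountableTopology K] in
theorem nh : NH S.nn (S.ρ / 2) := by
  have hsub : ball (0 : E × E) (S.ρ / 2) ⊆ ball 0 S.ρ := ball_subset_ball (by
    have := S.ρ_pos; linarith)
  have hsub2 : closedBall (0 : E × E) (S.ρ / 2) ⊆ ball 0 S.ρ := closedBall_subset_ball (by
    have := S.ρ_pos; linarith)
  refine ⟨fun q => (S.f_smooth _).mono hsub, fun k => ?_, fun k => ?_⟩
  · have h1 : Continuous fun p : (K × Tm) × (E × E) => ((S.ph p.1, p.2) : K × (E × E)) :=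
      (S.continuous_ph.comp continuous_fst).prodMk continuous_snd
    exact (S.f_cont k).comp h1.continuousOn fun p hp => ⟨mem_univ _, hsub hp.2⟩
  · have : ProperSpace (E × E) := FiniteDimensional.proper ℝ (E × E)
    have hc : IsCompact ((univ : Set K) ×ˢ closedBall (0 : E × E) (S.ρ / 2)) :=
      isCompact_univ.prod (isCompact_closedBall _ _)
    obtain ⟨C, hC⟩ := hc.exists_bound_of_continuousOn ((S.f_cont k).mono
      (prod_mono_right hsub2))
    exact ⟨C, fun q z hz => hC (S.ph q, z) ⟨mem_univ _, ball_subset_closedBall hz⟩⟩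

/-- the scale of the second component -/
def ep : ℝ := S.χ / 2

omit [CompactSpace K] [FirstCountableTopology K] [FiniteDimensional ℝ E] in
theorem ep_pos : 0 < S.ep := half_pos S.χ_pos

/-- first component -/
def pu (K E : Type) [TopologicalSpace K] [NormedAddCommGroup E] [NormedSpace ℝ E] :
    ((K × Tm) →ᵇ (E × E)) →L[ℝ] ((K × Tm) →ᵇ E) :=
  (ContinuousLinearMap.fst ℝ E E).compLeftContinuousBounded (K × Tm)

/-- second component -/
def pw (K E : Type) [TopologicalSpace K] [NormedAddCommGroup E] [NormedSpace ℝ E] :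
    ((K × Tm) →ᵇ (E × E)) →L[ℝ] ((K × Tm) →ᵇ E) :=
  (ContinuousLinearMap.snd ℝ E E).compLeftContinuousBounded (K × Tm)

/-- first inclusion -/
def iu (K E : Type) [TopologicalSpace K] [NormedAddCommGroup E] [NormedSpace ℝ E] :
    ((K × Tm) →ᵇ E) →L[ℝ] ((K × Tm) →ᵇ (E × E)) :=
  (ContinuousLinearMap.inl ℝ E E).compLeftContinuousBounded (K × Tm)

/-- second inclusion -/
def iw (K E : Type) [TopologicalSpace K] [NormedAddCommGroup E] [NormedSpace ℝ E] :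
    ((K × Tm) →ᵇ E) →L[ℝ] ((K × Tm) →ᵇ (E × E)) :=
  (ContinuousLinearMap.inr ℝ E E).compLeftContinuousBounded (K × Tm)

section
omit [CompactSpace K] [FirstCountableTopology K] [FiniteDimensional ℝ E]

theorem pu_apply (Z : (K × Tm) →ᵇ (E × E)) (q : K × Tm) : pu K E Z q = (Z q).1 := rfl
theorem pw_apply (Z : (K × Tm) →ᵇ (E × E)) (q : K × Tm) : pw K E Z q = (Z q).2 := rfl
theorem iu_apply (Z : (K × Tm) →ᵇ E) (q : K × Tm) : iu K E Z q = (Z q, 0) := rfl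
theorem iw_apply (Z : (K × Tm) →ᵇ E) (q : K × Tm) : iw K E Z q = (0, Z q) := rfl

theorem norm_pu_le (Z : (K × Tm) →ᵇ (E × E)) : ‖pu K E Z‖ ≤ ‖Z‖ :=
  (BoundedContinuousFunction.norm_le (norm_nonneg Z)).2 fun q =>
    (norm_fst_le (Z q)).trans (Z.norm_coe_le_norm q)

theorem norm_pw_le (Z : (K × Tm) →ᵇ (E × E)) : ‖pw K E Z‖ ≤ ‖Z‖ :=
  (BoundedContinuousFunction.norm_le (norm_nonneg Z)).2 fun q =>
    (norm_snd_le (Z q)).trans (Z.norm_coe_le_norm q)

end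

/-- the pair `(u, u')` -/
def TT : ((K × Tm) →ᵇ (E × E)) →L[ℝ] ((K × Tm) →ᵇ (E × E)) :=
  iu K E ∘L pu K E + iw K E ∘L (appR S.UU ∘L pu K E + S.ep • pw K E)

omit [FirstCountableTopology K] [FiniteDimensional ℝ E] in
theorem TT_apply (Z : (K × Tm) →ᵇ (E × E)) (q : K × Tm) :
    S.TT Z q = ((Z q).1, S.U (S.ph q) (Z q).1 + S.ep • (Z q).2) := by
  have : S.TT Z q = ((Z q).1 + 0, 0 + (S.U (S.ph q) (Z q).1 + S.ep • (Z q).2)) := rfl
  rw [this, add_zero, zero_add]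

/-- the linear part -/
def LL : ((K × Tm) →ᵇ (E × E)) →L[ℝ] ((K × Tm) →ᵇ (E × E)) :=
  iu K E ∘L OU K E S.Λ_pos ∘L (-(appR S.dd ∘L pu K E) + S.ep • pw K E)
    + iw K E ∘L OW K E S.Λ_pos ∘L appR S.dd ∘L pw K E

/-- the nonlinear part -/
def NN (Z : (K × Tm) →ᵇ (E × E)) : (K × Tm) →ᵇ E :=
  S.ep⁻¹ • (nem S.nn (S.TT Z) + appR S.RR (pu K E Z))

/-- the map of the fixed point equation `Z = A ξ + G Z` -/
def G (Z : (K × Tm) →ᵇ (E × E)) : (K × Tm) →ᵇ (E × E) :=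
  S.LL Z + iw K E (OW K E S.Λ_pos (S.NN Z))

/-- radius -/
def ρ₁ : ℝ := S.ρ / 2 / (‖S.TT‖ + 1)

omit [FirstCountableTopology K] [FiniteDimensional ℝ E] in
theorem ρ₁_pos : 0 < S.ρ₁ := by
  have := S.ρ_pos
  unfold ρ₁
  positivity

omit [FirstCountableTopology K] [FiniteDimensional ℝ E] in
theorem TT_mem {Z : (K × Tm) →ᵇ (E × E)} (hZ : Z ∈ ball (0 : (K × Tm) →ᵇ (E × E)) S.ρ₁) :
    S.TT Z ∈ ball (0 : (K × Tm) →ᵇ (E × E)) (S.ρ / 2) := by
  rw [mem_ball_zero_iff] at hZ ⊢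
  have h1 : ‖S.TT Z‖ ≤ ‖S.TT‖ * ‖Z‖ := S.TT.le_opNorm Z
  have h2 : ‖S.TT‖ * ‖Z‖ ≤ (‖S.TT‖ + 1) * ‖Z‖ := by
    have := norm_nonneg Z
    nlinarith
  have h3 : (‖S.TT‖ + 1) * ‖Z‖ < (‖S.TT‖ + 1) * S.ρ₁ :=
    mul_lt_mul_of_pos_left hZ (by positivity)
  have h4 : (‖S.TT‖ + 1) * S.ρ₁ = S.ρ / 2 := by
    unfold ρ₁
    field_simp
  linarith

theorem contDiffOn_G : ContDiffOn ℝ ∞ S.G (ball 0 S.ρ₁) := by
  have h1 : ContDiffOn ℝ ∞ (fun Z => nem S.nn (S.TT Z)) (ball 0 S.ρ₁) :=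
    (contDiffOn_nem S.nh).comp S.TT.contDiff.contDiffOn fun Z hZ => S.TT_mem hZ
  have h2 : ContDiffOn ℝ ∞ S.NN (ball 0 S.ρ₁) :=
    (h1.add (((appR S.RR).contDiff.comp (pu K E).contDiff).contDiffOn)).const_smul _
  exact S.LL.contDiff.contDiffOn.add
    (((iw K E ∘L OW K E S.Λ_pos).contDiff).comp_contDiffOn h2)

theorem hasFDerivAt_G : HasFDerivAt S.G S.LL 0 := by
  have h0 : (0 : (K × Tm) →ᵇ (E × E)) ∈ ball (0 : (K × Tm) →ᵇ (E × E)) (S.ρ / 2) :=
    mem_ball_self (by have := S.ρ_pos; linarith)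
  have hT0 : S.TT 0 = 0 := map_zero _
  have h1 : HasFDerivAt (fun Z => nem S.nn (S.TT Z))
      (appB (K × Tm) (E × E) E (nem (fun q z => fderiv ℝ (S.nn q) z) 0) ∘L S.TT) 0 := by
    have h2 := hasFDerivAt_nem S.nh h0
    have h3 : HasFDerivAt (nem S.nn)
        (appB (K × Tm) (E × E) E (nem (fun q z => fderiv ℝ (S.nn q) z) 0)) (S.TT 0) := by
      rw [hT0]
      exact h2
    exact h3.comp 0 S.TT.hasFDerivAt
  have h3 := (h1.add (((appR S.RR) ∘L (pu K E)).hasFDerivAt)).const_smul S.ep⁻¹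
  have h4 : appB (K × Tm) (E × E) E (nem (fun q z => fderiv ℝ (S.nn q) z) (S.TT 0)) ∘L S.TT
      + (appR S.RR) ∘L (pu K E) = 0 := by
    ext h q
    rw [hT0]
    change nem (fun q z => fderiv ℝ (S.nn q) z) 0 q (S.TT h q) + S.RR q (pu K E h q) = 0
    rw [nem_apply S.nh.fderiv h0, TT_apply, RR_apply, pu_apply]
    change fderiv ℝ (S.f (S.ph q)) 0 _ + _ = 0
    rw [S.f_deriv]
    simp
  rw [hT0] at h4
  rw [h4, smul_zero] at h3
  have h5 : HasFDerivAt (fun Z => iw K E (OW K E S.Λ_pos (S.NN Z)))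
      ((iw K E ∘L OW K E S.Λ_pos) ∘L 0) 0 :=
    (iw K E ∘L OW K E S.Λ_pos).hasFDerivAt.comp 0 h3
  have h6 := S.LL.hasFDerivAt.add h5
  rw [ContinuousLinearMap.comp_zero, add_zero] at h6
  exact h6

/-- the contraction factor of the linear part -/
def θ₀ : ℝ := S.Λ⁻¹ * (S.Λ - S.χ + S.ep)

omit [CompactSpace K] [FirstCountableTopology K] [FiniteDimensional ℝ E] in
theorem θ₀_lt : S.θ₀ < 1 := by
  have h1 := S.Λ_pos
  have h2 := S.χ_pos
  unfold θ₀ ep
  rw [inv_mul_lt_iff₀ h1]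
  linarith

omit [CompactSpace K] [FirstCountableTopology K] [FiniteDimensional ℝ E] in
theorem chi_le [Nonempty K] : S.χ ≤ S.Λ := by
  obtain ⟨x⟩ := ‹Nonempty K›
  have := (norm_nonneg _).trans (S.U_le x)
  linarith

theorem norm_LL_le (Z : (K × Tm) →ᵇ (E × E)) : ‖S.LL Z‖ ≤ S.θ₀ * ‖Z‖ := by
  have hΛ := S.Λ_pos
  have hep := S.ep_pos
  rcases isEmpty_or_nonempty K with hK | hK
  · have h1 : S.LL Z = 0 := BoundedContinuousFunction.ext fun q => (hK.false q.1).elim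
    have h2 : Z = 0 := BoundedContinuousFunction.ext fun q => (hK.false q.1).elim
    rw [h1, h2]; simp
  have hχ := S.chi_le
  have hd : 0 ≤ S.Λ - S.χ := by linarith
  have hθ : 0 ≤ S.θ₀ := by unfold θ₀; positivity
  have h1 : ‖(-(appR S.dd ∘L pu K E) + S.ep • pw K E) Z‖ ≤ (S.Λ - S.χ + S.ep) * ‖Z‖ := by
    refine (BoundedContinuousFunction.norm_le (by positivity)).2 fun q => ?_
    change ‖-(S.dd q (Z q).1) + S.ep • (Z q).2‖ ≤ _
    refine (norm_add_le _ _).trans ?_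
    rw [norm_neg, norm_smul, Real.norm_of_nonneg hep.le, add_mul]
    refine add_le_add ?_ ?_
    · exact ((S.dd q).le_opNorm _).trans (mul_le_mul (S.norm_dd q)
        ((norm_fst_le (Z q)).trans (Z.norm_coe_le_norm q)) (norm_nonneg _) hd)
    · exact mul_le_mul_of_nonneg_left ((norm_snd_le (Z q)).trans (Z.norm_coe_le_norm q)) hep.le
  have h2 : ‖appR S.dd (pw K E Z)‖ ≤ (S.Λ - S.χ + S.ep) * ‖Z‖ := by
    refine (BoundedContinuousFunction.norm_le (by positivity)).2 fun q => ?_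
    change ‖S.dd q (Z q).2‖ ≤ _
    refine ((S.dd q).le_opNorm _).trans (mul_le_mul ((S.norm_dd q).trans (by linarith))
        ((norm_snd_le (Z q)).trans (Z.norm_coe_le_norm q)) (norm_nonneg _) (by linarith))
  have h3 : ‖OU K E S.Λ_pos ((-(appR S.dd ∘L pu K E) + S.ep • pw K E) Z)‖ ≤ S.θ₀ * ‖Z‖ := by
    refine (OU_norm_le S.Λ_pos _).trans ?_
    unfold θ₀
    rw [mul_assoc]
    exact mul_le_mul_of_nonneg_left h1 (inv_nonneg.2 hΛ.le)
  have h4 : ‖OW K E S.Λ_pos (appR S.dd (pw K E Z))‖ ≤ S.θ₀ * ‖Z‖ := by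
    refine (OW_norm_le S.Λ_pos _).trans ?_
    unfold θ₀
    rw [mul_assoc]
    exact mul_le_mul_of_nonneg_left h2 (inv_nonneg.2 hΛ.le)
  refine (BoundedContinuousFunction.norm_le (by positivity)).2 fun q => ?_
  have h5 : S.LL Z q = (OU K E S.Λ_pos ((-(appR S.dd ∘L pu K E) + S.ep • pw K E) Z) q + 0,
      0 + OW K E S.Λ_pos (appR S.dd (pw K E Z)) q) := rfl
  rw [h5, add_zero, zero_add, Prod.norm_def]
  exact max_le ((BoundedContinuousFunction.norm_coe_le_norm _ q).trans h3)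
    ((BoundedContinuousFunction.norm_coe_le_norm _ q).trans h4)

theorem exists_radius : ∃ ρ₂ > 0, ρ₂ ≤ S.ρ₁ ∧ ∀ y ∈ ball (0 : (K × Tm) →ᵇ (E × E)) ρ₂,
    ‖fderiv ℝ S.G y‖ ≤ max ((S.θ₀ + 1) / 2) (1 / 2) := by
  have h1 : ContinuousAt (fderiv ℝ S.G) 0 := by
    have h2 := (S.contDiffOn_G.fderiv_of_isOpen (m := ∞) isOpen_ball (by simp)).continuousOn
    exact h2.continuousAt (isOpen_ball.mem_nhds (mem_ball_self S.ρ₁_pos))
  have h3 : ‖fderiv ℝ S.G 0‖ < max ((S.θ₀ + 1) / 2) (1 / 2) := by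
    rw [S.hasFDerivAt_G.fderiv]
    have h4 : ‖S.LL‖ ≤ max S.θ₀ 0 := ContinuousLinearMap.opNorm_le_bound _
      (le_max_right _ _) fun Z => (S.norm_LL_le Z).trans
        (mul_le_mul_of_nonneg_right (le_max_left _ _) (norm_nonneg _))
    refine h4.trans_lt ?_
    have := S.θ₀_lt
    rw [max_lt_iff]
    constructor
    · exact lt_max_of_lt_left (by linarith)
    · exact lt_max_of_lt_right (by norm_num)
  have h5 : ∀ᶠ y in 𝓝 (0 : (K × Tm) →ᵇ (E × E)),
      ‖fderiv ℝ S.G y‖ < max ((S.θ₀ + 1) / 2) (1 / 2) :=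
    (h1.norm (f := fderiv ℝ S.G)).tendsto.eventually (gt_mem_nhds h3)
  obtain ⟨r, hr, hrs⟩ := Metric.mem_nhds_iff.1 h5
  refine ⟨min r S.ρ₁, lt_min hr S.ρ₁_pos, min_le_right _ _, fun y hy => ?_⟩
  exact le_of_lt (hrs (ball_subset_ball (min_le_left _ _) hy))

end USys

end Vale.Agent.P207.N3.H248
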