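import Vale.Agent.P207.N3.H248.UMan

/-!
# P207, N3 (P1a): existence and smoothness of the unstable slopes
-/

open Set Filter Topology Metric
open scoped ContDiff BoundedContinuousFunction

noncomputable section

namespace Vale.Agent.P207.N3.H248

namespace USys

variable {K E : Type} [TopologicalSpace K] [CompactSpace K] [FirstCountableTopology K]
  [NormedAddCommGroup E] [NormedSpace ℝ E] [FiniteDimensional ℝ E] (S : USys K E)

/-- the field `e^{Λ t}` -/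
def ee : (K × Tm) →ᵇ (E →L[ℝ] E) :=
  BoundedContinuousFunction.ofNormedAddCommGroup
    (fun q : K × Tm => Real.exp (S.Λ * q.2) • ContinuousLinearMap.id ℝ E) (by fun_prop) 1
    fun q => by
      rw [norm_smul, Real.norm_of_nonneg (Real.exp_pos _).le]
      have h1 : Real.exp (S.Λ * q.2) ≤ 1 := Real.exp_le_one_iff.2
        (mul_nonpos_of_nonneg_of_nonpos S.Λ_pos.le (mem_Iic.1 q.2.2))
      have h2 : ‖ContinuousLinearMap.id ℝ E‖ ≤ 1 := ContinuousLinearMap.norm_id_le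
      exact mul_le_one₀ h1 (norm_nonneg _) h2

/-- constants -/
def constL (K E : Type) [TopologicalSpace K] [NormedAddCommGroup E] [NormedSpace ℝ E] :
    E →L[ℝ] ((K × Tm) →ᵇ E) :=
  LinearMap.mkContinuous
    { toFun := fun ξ => BoundedContinuousFunction.const (K × Tm) ξ
      map_add' := fun a b => BoundedContinuousFunction.ext fun q => rfl
      map_smul' := fun c a => BoundedContinuousFunction.ext fun q => rfl } 1 (fun ξ => by
    rw [one_mul]
    exact (BoundedContinuousFunction.norm_le (norm_nonneg ξ)).2 fun q => le_rfl)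

/-- the inhomogeneous term -/
def A : E →L[ℝ] ((K × Tm) →ᵇ (E × E)) := iu K E ∘L appR S.ee ∘L constL K E

omit [CompactSpace K] [FirstCountableTopology K] [FiniteDimensional ℝ E] in
theorem A_apply (ξ : E) (q : K × Tm) : S.A ξ q = (Real.exp (S.Λ * q.2) • ξ, 0) := rfl

/-- solutions of the fixed point equation -/
theorem exists_Z : ∃ ε > 0, ∃ Z : E → ((K × Tm) →ᵇ (E × E)), ContDiffOn ℝ ∞ Z (ball 0 ε) ∧
    Z 0 = 0 ∧ ∀ ξ ∈ ball (0 : E) ε, Z ξ ∈ ball (0 : (K × Tm) →ᵇ (E × E)) S.ρ₁ ∧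
      Z ξ = S.A ξ + S.G (Z ξ) := by
  obtain ⟨ρ₂, hρ₂, hρ₁, hd⟩ := S.exists_radius
  have hG0 : S.G 0 = 0 := by
    have h0 : (0 : (K × Tm) →ᵇ (E × E)) ∈ ball (0 : (K × Tm) →ᵇ (E × E)) (S.ρ / 2) :=
      mem_ball_self (by have := S.ρ_pos; linarith)
    have hT0 : S.TT 0 = 0 := map_zero _
    have h1 : S.NN 0 = 0 := by
      refine BoundedContinuousFunction.ext fun q => ?_
      change S.ep⁻¹ • (nem S.nn (S.TT 0) q + S.RR q (pu K E 0 q)) = 0
      rw [hT0, nem_apply S.nh h0]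
      change S.ep⁻¹ • (S.f (S.ph q) 0 + S.RR q 0) = 0
      rw [S.f_zero, map_zero, add_zero, smul_zero]
    unfold G
    rw [h1]
    simp
  obtain ⟨ε, hε, z, hz, hz0, hzs⟩ := exists_inv hρ₂
    (max_lt (by have := S.θ₀_lt; linarith) (by norm_num)) (S.contDiffOn_G.mono
      (ball_subset_ball hρ₁)) hG0 hd
  have hA : ∃ δ > 0, ∀ ξ ∈ ball (0 : E) δ, S.A ξ ∈ ball (0 : (K × Tm) →ᵇ (E × E)) ε := by
    have h1 : ∀ᶠ ξ in 𝓝 (0 : E), S.A ξ ∈ ball (0 : (K × Tm) →ᵇ (E × E)) ε :=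
      S.A.continuous.continuousAt.eventually (isOpen_ball.mem_nhds (by
        rw [map_zero]; exact mem_ball_self hε))
    exact Metric.mem_nhds_iff.1 h1
  obtain ⟨δ, hδ, hδA⟩ := hA
  refine ⟨δ, hδ, fun ξ => z (S.A ξ), hz.comp S.A.contDiff.contDiffOn hδA, by simp [hz0],
    fun ξ hξ => ?_⟩
  obtain ⟨h1, h2⟩ := hzs _ (hδA ξ hξ)
  exact ⟨ball_subset_ball hρ₁ h1, h2⟩

/-- time zero -/
def t0 : Tm := ⟨0, mem_Iic.2 le_rfl⟩

/-- the slope read off from the family of solutions -/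
def sl (Z : E → ((K × Tm) →ᵇ (E × E))) (x : K) (ξ : E) : E :=
  S.U x ξ + S.ep • (Z ξ (x, t0)).2

/-- the functional -/
def ell (x : K) : (E × ((K × Tm) →ᵇ (E × E))) →L[ℝ] E :=
  S.U x ∘L ContinuousLinearMap.fst ℝ E ((K × Tm) →ᵇ (E × E))
    + S.ep • (ContinuousLinearMap.snd ℝ E E ∘L (BoundedContinuousFunction.evalCLM ℝ (x, t0)) ∘L
      ContinuousLinearMap.snd ℝ E ((K × Tm) →ᵇ (E × E)))

omit [CompactSpace K] [FirstCountableTopology K] [FiniteDimensional ℝ E] in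
theorem ell_apply (x : K) (p : E × ((K × Tm) →ᵇ (E × E))) :
    S.ell x p = S.U x p.1 + S.ep • (p.2 (x, t0)).2 := rfl

omit [CompactSpace K] [FirstCountableTopology K] [FiniteDimensional ℝ E] in
theorem continuous_ell :
    Continuous fun p : K × (E × ((K × Tm) →ᵇ (E × E))) => S.ell p.1 p.2 := by
  simp only [ell_apply]
  have h1 := S.U_cont
  have h2 : Continuous fun p : K × (E × ((K × Tm) →ᵇ (E × E))) => p.2.2 (p.1, t0) :=
    (ContinuousEval.continuous_eval (F := (K × Tm) →ᵇ (E × E))).comp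
      (by fun_prop : Continuous fun p : K × (E × ((K × Tm) →ᵇ (E × E))) => (p.2.2, (p.1, t0)))
  have h3 : Continuous fun p : K × (E × ((K × Tm) →ᵇ (E × E))) => S.U p.1 p.2.1 :=
    (h1.comp continuous_fst).clm_apply (by fun_prop)
  fun_prop

variable {ε : ℝ} {Z : E → ((K × Tm) →ᵇ (E × E))}

omit [CompactSpace K] [FirstCountableTopology K] [FiniteDimensional ℝ E] in
theorem sl_smooth (hZ : ContDiffOn ℝ ∞ Z (ball 0 ε)) (x : K) :
    ContDiffOn ℝ ∞ (S.sl Z x) (ball 0 ε) :=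
  (S.ell x).contDiff.comp_contDiffOn (contDiffOn_id.prodMk hZ)

omit [CompactSpace K] [FirstCountableTopology K] in
theorem sl_cont (hZ : ContDiffOn ℝ ∞ Z (ball 0 ε)) (k : ℕ) :
    ContinuousOn (fun p : K × E => iteratedFDeriv ℝ k (S.sl Z p.1) p.2)
      (univ ×ˢ ball 0 ε) :=
  cont_iter (Y := E × ((K × Tm) →ᵇ (E × E))) (ℓ := S.ell) S.continuous_ell
    (W := fun ξ => (ξ, Z ξ)) (contDiffOn_id.prodMk hZ) k

omit [CompactSpace K] [FirstCountableTopology K] [FiniteDimensional ℝ E] in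
theorem sl_zero (hZ0 : Z 0 = 0) (x : K) : S.sl Z x 0 = 0 := by
  simp [sl, hZ0]

theorem sl_deriv (hε : 0 < ε) (hZ : ContDiffOn ℝ ∞ Z (ball 0 ε)) (hZ0 : Z 0 = 0)
    (hZs : ∀ ξ ∈ ball (0 : E) ε, Z ξ = S.A ξ + S.G (Z ξ)) (x : K) :
    fderiv ℝ (S.sl Z x) 0 = S.U x := by
  have h0 : (0 : E) ∈ ball (0 : E) ε := mem_ball_self hε
  have hd : HasFDerivAt Z (fderiv ℝ Z 0) 0 :=
    ((hZ.contDiffAt (isOpen_ball.mem_nhds h0)).differentiableAt (by simp)).hasFDerivAt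
  set Z' := fderiv ℝ Z 0 with hZ'
  have h1 : HasFDerivAt (fun ξ => S.A ξ + S.G (Z ξ)) (S.A + S.LL ∘L Z') 0 := by
    have h2 : HasFDerivAt S.G S.LL (Z 0) := by rw [hZ0]; exact S.hasFDerivAt_G
    exact S.A.hasFDerivAt.add (h2.comp 0 hd)
  have h3 : HasFDerivAt Z (S.A + S.LL ∘L Z') 0 := by
    refine h1.congr_of_eventuallyEq ?_
    filter_upwards [isOpen_ball.mem_nhds h0] with ξ hξ using hZs ξ hξ
  have h4 : Z' = S.A + S.LL ∘L Z' := hd.unique h3
  have h5 : ∀ η, pw K E (Z' η) = OW K E S.Λ_pos (appR S.dd (pw K E (Z' η))) := by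
    intro η
    conv_lhs => rw [h4]
    refine BoundedContinuousFunction.ext fun q => ?_
    change (0 : E) + (0 + OW K E S.Λ_pos (appR S.dd (pw K E (Z' η))) q) = _
    simp
  have h6 : ∀ η, pw K E (Z' η) = 0 := by
    intro η
    have h7 : ‖pw K E (Z' η)‖ ≤ S.Λ⁻¹ * ((S.Λ - S.χ) * ‖pw K E (Z' η)‖) := by
      conv_lhs => rw [h5 η]
      refine (OW_norm_le S.Λ_pos _).trans (mul_le_mul_of_nonneg_left ?_
        (inv_nonneg.2 S.Λ_pos.le))
      have : Nonempty K := ⟨x⟩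
      have hχ := S.chi_le
      refine (BoundedContinuousFunction.norm_le (mul_nonneg (by linarith) (norm_nonneg _))).2
        fun q => ?_
      change ‖S.dd q (pw K E (Z' η) q)‖ ≤ _
      exact ((S.dd q).le_opNorm _).trans (mul_le_mul (S.norm_dd q)
        (BoundedContinuousFunction.norm_coe_le_norm _ q) (norm_nonneg _) (by linarith))
    have h8 : S.Λ⁻¹ * ((S.Λ - S.χ) * ‖pw K E (Z' η)‖)
        = ‖pw K E (Z' η)‖ - S.Λ⁻¹ * S.χ * ‖pw K E (Z' η)‖ := by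
      have := S.Λ_pos.ne'
      field_simp
    rw [h8] at h7
    have h9 : 0 < S.Λ⁻¹ * S.χ := mul_pos (inv_pos.2 S.Λ_pos) S.χ_pos
    have h10 : ‖pw K E (Z' η)‖ ≤ 0 := by
      by_contra hc
      rw [not_le] at hc
      have := mul_pos h9 hc
      linarith
    exact norm_le_zero_iff.1 h10
  have h11 : HasFDerivAt (S.sl Z x) (S.ell x ∘L (ContinuousLinearMap.id ℝ E).prod Z') 0 :=
    (S.ell x).hasFDerivAt.comp 0 ((hasFDerivAt_id (𝕜 := ℝ) (0 : E)).prodMk hd)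
  rw [h11.fderiv]
  ext η
  change S.U x η + S.ep • (Z' η (x, t0)).2 = _
  have h12 : (Z' η (x, t0)).2 = 0 := by
    have h13 : pw K E (Z' η) (x, t0) = 0 := by rw [h6]; rfl
    exact h13
  rw [h12, smul_zero, add_zero]

/-- the solution of the second order equation -/
theorem sl_ode (hZρ : ∀ ξ ∈ ball (0 : E) ε, Z ξ ∈ ball (0 : (K × Tm) →ᵇ (E × E)) S.ρ₁)
    (hZs : ∀ ξ ∈ ball (0 : E) ε, Z ξ = S.A ξ + S.G (Z ξ)) (x : K) {ξ : E}
    (hξ : ξ ∈ ball (0 : E) ε) :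
    ∃ u w : ℝ → E, u 0 = ξ ∧
      (∀ t ≤ 0, ∀ q : K × Tm, q.1 = x → (q.2 : ℝ) = t → Z ξ q = (u t, w t)) ∧
      (∀ t ≤ 0, HasDerivAt u (S.U (S.φ t x) (u t) + S.ep • w t) t) ∧
      (∀ t ≤ 0, HasDerivAt (fun t => S.U (S.φ t x) (u t) + S.ep • w t)
        (S.f (S.φ t x) (u t, S.U (S.φ t x) (u t) + S.ep • w t)) t) ∧
      (∀ t ≤ 0, HasDerivAt w (-(S.U (S.φ t x) (w t)) + S.ep⁻¹ •
        (S.f (S.φ t x) (u t, S.U (S.φ t x) (u t) + S.ep • w t) + S.R (S.φ t x) (u t))) t) := by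
  set Y := Z ξ with hY
  set m1 : (K × Tm) →ᵇ E := (-(appR S.dd ∘L pu K E) + S.ep • pw K E) Y with hm1
  set m2 : (K × Tm) →ᵇ E := appR S.dd (pw K E Y) + S.NN Y with hm2
  set u : ℝ → E := fun t => Real.exp (S.Λ * t) • ξ + opU S.Λ (ex m1 x) t with hu
  set w : ℝ → E := fun t => opW S.Λ (ex m2 x) t with hw
  have hval : ∀ t : Tm, Y (x, t) = (u t, w t) := by
    intro t
    have h1 : Y (x, t) = (S.A ξ + S.G Y) (x, t) := by
      rw [← hZs ξ hξ]
    rw [h1]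
    have h2 : (S.A ξ + S.G Y) (x, t) = (Real.exp (S.Λ * t) • ξ
        + ((OU K E S.Λ_pos m1 (x, t) + 0) + 0),
        0 + ((0 + OW K E S.Λ_pos (appR S.dd (pw K E Y)) (x, t))
          + OW K E S.Λ_pos (S.NN Y) (x, t))) := rfl
    rw [h2]
    refine Prod.ext ?_ ?_
    · simp only [add_zero]
      rw [OU_apply]
    · simp only [zero_add]
      have h3 : OW K E S.Λ_pos m2 (x, t) = OW K E S.Λ_pos (appR S.dd (pw K E Y)) (x, t)
          + OW K E S.Λ_pos (S.NN Y) (x, t) := by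
        rw [hm2, map_add]; rfl
      rw [← h3, OW_apply]
  have hval' : ∀ t ≤ 0, ∀ q : K × Tm, q.1 = x → (q.2 : ℝ) = t → Y q = (u t, w t) := by
    rintro t ht ⟨y, s⟩ hy hs
    simp only at hy hs
    rw [hy, ← hs]
    exact hval s
  have hph : ∀ {t : ℝ}, t ≤ 0 → S.ph (x, cl t) = S.φ t x := by
    intro t ht
    unfold ph
    rw [cl_of_nonpos ht]
  have hcl : ∀ {t : ℝ}, t ≤ 0 → Y (x, cl t) = (u t, w t) := fun ht =>
    hval' _ ht _ rfl (cl_of_nonpos ht)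
  have hu' : ∀ t ≤ 0, HasDerivAt u (S.U (S.φ t x) (u t) + S.ep • w t) t := by
    intro t ht
    have h2 : HasDerivAt (fun t : ℝ => Real.exp (S.Λ * t)) (Real.exp (S.Λ * t) * (S.Λ * 1)) t :=
      ((hasDerivAt_id t).const_mul S.Λ).exp
    have h3 := (h2.smul_const ξ).add (hasDerivAt_opU (Λ := S.Λ) (cont_ex m1 x) t)
    refine h3.congr_deriv ?_
    have h4 : ex m1 x t = -((S.Λ • ContinuousLinearMap.id ℝ E - S.U (S.φ t x)) (u t))
        + S.ep • w t := by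
      change -(S.dd (x, cl t) (Y (x, cl t)).1) + S.ep • (Y (x, cl t)).2 = _
      rw [hcl ht, dd_apply, hph ht]
    rw [h4]
    simp only [mul_one, _root_.sub_apply, _root_.smul_apply,
      ContinuousLinearMap.id_apply, hu]
    module
  have hw' : ∀ t ≤ 0, HasDerivAt w (-(S.U (S.φ t x) (w t)) + S.ep⁻¹ •
      (S.f (S.φ t x) (u t, S.U (S.φ t x) (u t) + S.ep • w t) + S.R (S.φ t x) (u t))) t := by
    intro t ht
    refine (hasDerivAt_opW (Λ := S.Λ) (cont_ex m2 x) t).congr_deriv ?_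
    have h4 : ex m2 x t = (S.Λ • ContinuousLinearMap.id ℝ E - S.U (S.φ t x)) (w t)
        + S.ep⁻¹ • (S.f (S.φ t x) (u t, S.U (S.φ t x) (u t) + S.ep • w t)
          + S.R (S.φ t x) (u t)) := by
      change S.dd (x, cl t) (Y (x, cl t)).2
        + S.ep⁻¹ • (nem S.nn (S.TT Y) (x, cl t) + S.RR (x, cl t) (Y (x, cl t)).1) = _
      rw [nem_apply S.nh (S.TT_mem (hZρ ξ hξ)), TT_apply, hcl ht, dd_apply, RR_apply, hph ht]
      unfold nn
      rw [hph ht]
    rw [h4]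
    simp only [_root_.sub_apply, _root_.smul_apply,
      ContinuousLinearMap.id_apply, hw]
    module
  refine ⟨u, w, by simp [hu, opU], hval', hu', fun t ht => ?_, hw'⟩
  have h5 := ((S.riccati x t).clm_apply (hu' t ht)).add ((hw' t ht).const_smul S.ep)
  refine h5.congr_deriv ?_
  have h6 : S.ep ≠ 0 := S.ep_pos.ne'
  simp only [_root_.sub_apply, _root_.neg_apply,
    ContinuousLinearMap.comp_apply, map_add, map_smul, smul_add, smul_neg, smul_smul,
    mul_inv_cancel₀ h6, one_smul]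
  abel

end USys

end Vale.Agent.P207.N3.H248
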