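import Vale.Agent.P207.N3.H248.UMan2

/-!
# P207, N3 (P1a): uniqueness of the small solutions in the past, and the final theorem
-/

open Set Filter Topology Metric
open scoped ContDiff BoundedContinuousFunction

noncomputable section

namespace Vale.Agent.P207.N3.H248

namespace USys

variable {K E : Type} [TopologicalSpace K] [CompactSpace K] [FirstCountableTopology K]
  [NormedAddCommGroup E] [NormedSpace ℝ E] [FiniteDimensional ℝ E] (S : USys K E)

/-- `(u, p)` solves `u' = p`, `p' = f (u, p)` on `(-∞, 0]` and is bounded by `δ` -/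
structure Sol (x : K) (δ : ℝ) (u p : ℝ → E) : Prop where
  hu : ∀ t ≤ 0, HasDerivWithinAt u (p t) (Iic 0) t
  hp : ∀ t ≤ 0, HasDerivWithinAt p (S.f (S.φ t x) (u t, p t)) (Iic 0) t
  hb : ∀ t ≤ 0, ‖(u t, p t)‖ ≤ δ

omit [FirstCountableTopology K] in
/-- the nonlinearity has a small Lipschitz constant near `0` -/
theorem exists_lip {κ : ℝ} (hκ : 0 < κ) : ∃ δ > 0, δ < S.ρ ∧ ∀ x, ∀ y ∈ closedBall (0 : E × E) δ,
    ∀ z ∈ closedBall (0 : E × E) δ,
    ‖(S.f x y + S.R x y.1) - (S.f x z + S.R x z.1)‖ ≤ κ * ‖y - z‖ := by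
  obtain ⟨C, hC⟩ := S.nh.fderiv.fderiv.bd0
  have hρ := S.ρ_pos
  set δ : ℝ := min (S.ρ / 4) (κ / (max C 0 + 1)) with hδ
  have hδ0 : 0 < δ := lt_min (by linarith) (by positivity)
  have hδ1 : δ ≤ S.ρ / 4 := min_le_left _ _
  have hδ2 : (max C 0 + 1) * δ ≤ κ := by
    have h1 : δ ≤ κ / (max C 0 + 1) := min_le_right _ _
    rw [le_div_iff₀ (by positivity)] at h1
    linarith
  have hsub : closedBall (0 : E × E) δ ⊆ ball 0 (S.ρ / 2) :=
    closedBall_subset_ball (by linarith)
  refine ⟨δ, hδ0, by linarith, fun x y hy z hz => ?_⟩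
  set q : K × Tm := (x, t0) with hq
  have hphq : S.ph q = x := S.φ_zero x
  have hnn : S.nn q = S.f x := by
    funext z
    unfold nn
    rw [hphq]
  have hd : ∀ y ∈ closedBall (0 : E × E) δ, HasFDerivWithinAt
      (fun y => S.f x y + S.R x y.1)
      (fderiv ℝ (S.f x) y + S.R x ∘L ContinuousLinearMap.fst ℝ E E) (closedBall 0 δ) y := by
    intro y hy
    have h1 := S.nh.hasFDerivAt q (hsub hy)
    rw [hnn] at h1
    exact (h1.add (S.R x ∘L ContinuousLinearMap.fst ℝ E E).hasFDerivAt).hasFDerivWithinAt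
  have hb : ∀ y ∈ closedBall (0 : E × E) δ,
      ‖fderiv ℝ (S.f x) y + S.R x ∘L ContinuousLinearMap.fst ℝ E E‖ ≤ κ := by
    intro y hy
    have h0 : S.R x ∘L ContinuousLinearMap.fst ℝ E E = -(fderiv ℝ (S.f x) 0) := by
      ext v
      · change S.R x v = -(fderiv ℝ (S.f x) 0 (v, 0))
        rw [S.f_deriv, neg_neg]
      · change S.R x 0 = -(fderiv ℝ (S.f x) 0 (0, v))
        rw [S.f_deriv, neg_neg]
    rw [h0, ← sub_eq_add_neg]
    have h2 : ‖fderiv ℝ (S.f x) y - fderiv ℝ (S.f x) 0‖ ≤ max C 0 * ‖y - 0‖ :=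
      (convex_closedBall (0 : E × E) δ).norm_image_sub_le_of_norm_hasFDerivWithin_le
        (f := fun y => fderiv ℝ (S.f x) y)
        (f' := fun y => fderiv ℝ (fun y => fderiv ℝ (S.f x) y) y)
        (fun y hy => by
          have h3 := S.nh.fderiv.hasFDerivAt q (hsub hy)
          rw [hnn] at h3
          exact h3.hasFDerivWithinAt)
        (fun y hy => by
          have h3 := hC q y (hsub hy)
          rw [hnn] at h3
          exact h3.trans (le_max_left _ _)) (mem_closedBall_self hδ0.le) hy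
    rw [sub_zero] at h2
    refine h2.trans ?_
    have h4 : ‖y‖ ≤ δ := mem_closedBall_zero_iff.1 hy
    have h5 : max C 0 * ‖y‖ ≤ max C 0 * δ := mul_le_mul_of_nonneg_left h4 (le_max_right _ _)
    have h6 : (max C 0 + 1) * δ = max C 0 * δ + δ := by ring
    linarith
  exact (convex_closedBall (0 : E × E) δ).norm_image_sub_le_of_norm_hasFDerivWithin_le hd hb hz hy

omit [FirstCountableTopology K] [FiniteDimensional ℝ E] in
theorem exists_U_bound : ∃ M, 0 ≤ M ∧ ∀ x, ‖S.U x‖ ≤ M := by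
  obtain ⟨M, hM⟩ := isCompact_univ.exists_bound_of_continuousOn (f := S.U) S.U_cont.continuousOn
  exact ⟨max M 0, le_max_right _ _, fun x => (hM x (mem_univ _)).trans (le_max_left _ _)⟩

omit [FirstCountableTopology K] in
/-- uniqueness of the small solutions -/
theorem exists_uniq : ∃ δ > 0, ∀ x, ∀ u₁ p₁ u₂ p₂ : ℝ → E, S.Sol x δ u₁ p₁ → S.Sol x δ u₂ p₂ →
    u₁ 0 = u₂ 0 → ∀ t ≤ 0, u₁ t = u₂ t ∧ p₁ t = p₂ t := by
  obtain ⟨M, hM0, hM⟩ := S.exists_U_bound
  have hep := S.ep_pos
  have hΛ := S.Λ_pos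
  set κ : ℝ := S.ep * S.ep / (M + 1 + S.ep) with hκ
  have hκ0 : 0 < κ := by positivity
  obtain ⟨δ, hδ, hδρ, hlip⟩ := S.exists_lip hκ0
  refine ⟨δ, hδ, fun x u₁ p₁ u₂ p₂ h₁ h₂ h0 => ?_⟩
  have hne : Nonempty K := ⟨x⟩
  have hχ := S.chi_le
  have hθ0 : 0 ≤ S.θ₀ := by unfold θ₀; exact mul_nonneg (inv_nonneg.2 hΛ.le) (by linarith)
  set d : ℝ → E := fun t => u₁ t - u₂ t with hd
  set e : ℝ → E := fun t => S.ep⁻¹ • ((p₁ t - p₂ t) - S.U (S.φ t x) (u₁ t - u₂ t)) with he
  have hpe : ∀ t, p₁ t - p₂ t = S.U (S.φ t x) (d t) + S.ep • e t := by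
    intro t
    simp only [he, hd, smul_smul, mul_inv_cancel₀ hep.ne', one_smul]
    abel
  set F : ℝ → E := fun t => (S.f (S.φ t x) (u₁ t, p₁ t) + S.R (S.φ t x) (u₁ t))
    - (S.f (S.φ t x) (u₂ t, p₂ t) + S.R (S.φ t x) (u₂ t)) with hF
  -- the derivatives
  have hd' : ∀ t ≤ 0, HasDerivWithinAt d (S.U (S.φ t x) (d t) + S.ep • e t) (Iic 0) t := by
    intro t ht
    rw [← hpe]
    exact (h₁.hu t ht).sub (h₂.hu t ht)
  have he' : ∀ t ≤ 0, HasDerivWithinAt e (-(S.U (S.φ t x) (e t)) + S.ep⁻¹ • F t) (Iic 0) t := by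
    intro t ht
    have h3 := ((((h₁.hp t ht).sub (h₂.hp t ht)).sub
      ((S.riccati x t).hasDerivWithinAt.clm_apply (hd' t ht)))).const_smul S.ep⁻¹
    refine h3.congr_deriv ?_
    simp only [hF, _root_.sub_apply, _root_.neg_apply, ContinuousLinearMap.comp_apply, map_add,
      map_smul, hd, map_sub]
    have h4 : -(S.U (S.φ t x) (e t)) = S.ep⁻¹ • (-(S.ep • S.U (S.φ t x) (e t))) := by
      rw [smul_neg, smul_smul, inv_mul_cancel₀ hep.ne', one_smul]
    rw [h4, ← smul_add]
    congr 1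
    abel
  -- the source terms, extended by clamping
  have hφc : Continuous fun s : ℝ => S.φ (cl s) x :=
    S.φ_cont.comp ((continuous_subtype_val.comp continuous_cl).prodMk continuous_const)
  have hclc : ∀ {h : ℝ → E}, (∀ t ≤ 0, ContinuousWithinAt h (Iic 0) t) →
      Continuous fun s : ℝ => h (cl s) := by
    intro h hh
    have h1 : ContinuousOn h (Iic 0) := fun t ht => hh t ht
    exact h1.comp_continuous (continuous_subtype_val.comp continuous_cl) fun s => (cl s).2
  have hu₁c := hclc fun t ht => (h₁.hu t ht).continuousWithinAt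
  have hu₂c := hclc fun t ht => (h₂.hu t ht).continuousWithinAt
  have hp₁c := hclc fun t ht => (h₁.hp t ht).continuousWithinAt
  have hp₂c := hclc fun t ht => (h₂.hp t ht).continuousWithinAt
  have hdc := hclc fun t ht => (hd' t ht).continuousWithinAt
  have hec := hclc fun t ht => (he' t ht).continuousWithinAt
  have hstep : ∀ a : ℝ, 0 ≤ a → (∀ t ≤ 0, ‖d t‖ ≤ a ∧ ‖e t‖ ≤ a) →
      ∀ t ≤ 0, ‖d t‖ ≤ S.θ₀ * a ∧ ‖e t‖ ≤ S.θ₀ * a := by
    intro a ha hba t ht
    have hFb : ∀ s ≤ 0, ‖F s‖ ≤ S.ep * S.ep * a := by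
      intro s hs
      have h5 := hlip (S.φ s x) (u₁ s, p₁ s) (mem_closedBall_zero_iff.2 (h₁.hb s hs))
        (u₂ s, p₂ s) (mem_closedBall_zero_iff.2 (h₂.hb s hs))
      have h6 : ‖((u₁ s, p₁ s) : E × E) - (u₂ s, p₂ s)‖ ≤ (M + 1 + S.ep) * a := by
        rw [Prod.mk_sub_mk, Prod.norm_def]
        refine max_le ?_ ?_
        · have := (hba s hs).1
          change ‖d s‖ ≤ _
          nlinarith
        · change ‖p₁ s - p₂ s‖ ≤ _
          rw [hpe]
          refine (norm_add_le _ _).trans ?_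
          rw [norm_smul, Real.norm_of_nonneg hep.le]
          have h7 : ‖S.U (S.φ s x) (d s)‖ ≤ M * a := ((S.U _).le_opNorm _).trans
            (mul_le_mul (hM _) (hba s hs).1 (norm_nonneg _) hM0)
          have h8 : S.ep * ‖e s‖ ≤ S.ep * a := mul_le_mul_of_nonneg_left (hba s hs).2 hep.le
          nlinarith
      refine h5.trans ?_
      have h9 : κ * ((M + 1 + S.ep) * a) = S.ep * S.ep * a := by
        rw [hκ]
        field_simp
      rw [← h9]
      exact mul_le_mul_of_nonneg_left h6 hκ0.le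
    constructor
    · -- the unstable component
      set m : ℝ → E := fun s => -((S.Λ • ContinuousLinearMap.id ℝ E - S.U (S.φ (cl s) x))
        (d (cl s))) + S.ep • e (cl s) with hm
      have hmc : Continuous m := by
        have h2 : Continuous fun s : ℝ => S.U (S.φ (cl s) x) := S.U_cont.comp hφc
        exact (((continuous_const.sub h2).clm_apply hdc).neg).add (hec.const_smul _)
      have hmb : ∀ s, ‖m s‖ ≤ (S.Λ - S.χ + S.ep) * a := by
        intro s
        have hs : ((cl s : Tm) : ℝ) ≤ 0 := (cl s).2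
        refine (norm_add_le _ _).trans ?_
        rw [norm_neg, norm_smul, Real.norm_of_nonneg hep.le, add_mul]
        refine add_le_add ?_ (mul_le_mul_of_nonneg_left (hba _ hs).2 hep.le)
        exact (ContinuousLinearMap.le_opNorm _ _).trans (mul_le_mul (S.U_le _) (hba _ hs).1
          (norm_nonneg _) (by linarith))
      have h10 := eq_opU (Λ := S.Λ) hmc (u := d) (fun s hs => (hd' s hs).congr_deriv (by
        simp only [hm, cl_of_nonpos hs, _root_.sub_apply, _root_.smul_apply,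
          ContinuousLinearMap.id_apply]
        module)) ht
      have h11 : d 0 = 0 := by simp [hd, h0]
      rw [h10, h11, smul_zero, zero_add]
      refine (norm_opU_le hΛ hmb ht).trans (le_of_eq ?_)
      unfold θ₀
      ring
    · set m : ℝ → E := fun s => (S.Λ • ContinuousLinearMap.id ℝ E - S.U (S.φ (cl s) x))
        (e (cl s)) + S.ep⁻¹ • F (cl s) with hm
      have hFc : Continuous fun s : ℝ => F (cl s) := by
        have h2 : Continuous fun s : ℝ => S.R (S.φ (cl s) x) := S.R_cont.comp hφc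
        have hfc : ∀ {u p : ℝ → E}, (Continuous fun s : ℝ => u (cl s)) →
            (Continuous fun s : ℝ => p (cl s)) → (∀ t ≤ 0, ‖(u t, p t)‖ ≤ δ) →
            Continuous fun s : ℝ => S.f (S.φ (cl s) x) (u (cl s), p (cl s)) := by
          intro u p hu hp hb
          have h3 : ContinuousOn (fun q : K × (E × E) => S.f q.1 q.2) (univ ×ˢ ball 0 S.ρ) := by
            have h4 := S.f_cont 0
            have h5 : (fun p : K × (E × E) => S.f p.1 p.2) =
                fun p : K × (E × E) => (continuousMultilinearCurryFin0 ℝ (E × E) E)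
                  (iteratedFDeriv ℝ 0 (S.f p.1) p.2) := by
              funext p
              simp [iteratedFDeriv_zero_eq_comp]
            rw [h5]
            exact (LinearIsometryEquiv.continuous _).comp_continuousOn h4
          refine h3.comp_continuous (f := fun s : ℝ => (S.φ (cl s) x, (u (cl s), p (cl s))))
            (hφc.prodMk (hu.prodMk hp)) fun s => ⟨mem_univ _, ?_⟩
          rw [mem_ball_zero_iff]
          exact (hb _ (cl s).2).trans_lt hδρ
        exact ((hfc hu₁c hp₁c h₁.hb).add (h2.clm_apply hu₁c)).sub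
          ((hfc hu₂c hp₂c h₂.hb).add (h2.clm_apply hu₂c))
      have hmc : Continuous m := by
        have h2 : Continuous fun s : ℝ => S.U (S.φ (cl s) x) := S.U_cont.comp hφc
        exact ((continuous_const.sub h2).clm_apply hec).add (hFc.const_smul _)
      have hmb : ∀ s, ‖m s‖ ≤ (S.Λ - S.χ + S.ep) * a := by
        intro s
        have hs : ((cl s : Tm) : ℝ) ≤ 0 := (cl s).2
        refine (norm_add_le _ _).trans ?_
        rw [norm_smul, Real.norm_of_nonneg (inv_nonneg.2 hep.le), add_mul]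
        refine add_le_add ?_ ?_
        · exact (ContinuousLinearMap.le_opNorm _ _).trans (mul_le_mul (S.U_le _) (hba _ hs).2
            (norm_nonneg _) (by linarith))
        · refine (mul_le_mul_of_nonneg_left (hFb _ hs) (inv_nonneg.2 hep.le)).trans
            (le_of_eq ?_)
          field_simp
      -- the stable component is bounded
      have h10 := eq_opW hΛ hmc hmb (w := e) (D := a) (fun s hs => (he' s hs).congr_deriv (by
        simp only [hm, cl_of_nonpos hs, _root_.sub_apply, _root_.smul_apply,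
          ContinuousLinearMap.id_apply]
        module)) (fun s hs => (hba s hs).2) ht
      rw [h10]
      refine (norm_opW_le hΛ hmc hmb t).trans (le_of_eq ?_)
      unfold θ₀
      ring
  -- initial bound and iteration
  set a₀ : ℝ := 2 * δ + S.ep⁻¹ * (2 * δ + M * (2 * δ)) with ha₀
  have ha0 : 0 ≤ a₀ := by positivity
  have hinit : ∀ t ≤ 0, ‖d t‖ ≤ a₀ ∧ ‖e t‖ ≤ a₀ := by
    intro t ht
    have h1 : ‖d t‖ ≤ 2 * δ := by
      have h2 := (norm_fst_le (u₁ t, p₁ t)).trans (h₁.hb t ht)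
      have h3 := (norm_fst_le (u₂ t, p₂ t)).trans (h₂.hb t ht)
      refine (norm_sub_le _ _).trans ?_
      simp only at h2 h3
      linarith
    have h4 : ‖p₁ t - p₂ t‖ ≤ 2 * δ := by
      have h2 := (norm_snd_le (u₁ t, p₁ t)).trans (h₁.hb t ht)
      have h3 := (norm_snd_le (u₂ t, p₂ t)).trans (h₂.hb t ht)
      refine (norm_sub_le _ _).trans ?_
      simp only at h2 h3
      linarith
    have h5 : ‖e t‖ ≤ S.ep⁻¹ * (2 * δ + M * (2 * δ)) := by
      simp only [he]
      rw [norm_smul, Real.norm_of_nonneg (inv_nonneg.2 hep.le)]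
      refine mul_le_mul_of_nonneg_left ((norm_sub_le _ _).trans (add_le_add h4 ?_))
        (inv_nonneg.2 hep.le)
      exact ((S.U _).le_opNorm _).trans (mul_le_mul (hM _) h1 (norm_nonneg _) hM0)
    have h6 : 0 ≤ S.ep⁻¹ * (2 * δ + M * (2 * δ)) := by positivity
    exact ⟨by linarith, by linarith⟩
  have hiter : ∀ n : ℕ, ∀ t ≤ 0, ‖d t‖ ≤ S.θ₀ ^ n * a₀ ∧ ‖e t‖ ≤ S.θ₀ ^ n * a₀ := by
    intro n
    induction n with
    | zero => simpa using hinit
    | succ n ih =>
      have h1 := hstep (S.θ₀ ^ n * a₀) (by positivity) ih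
      intro t ht
      have h2 := h1 t ht
      have h3 : S.θ₀ ^ (n + 1) * a₀ = S.θ₀ * (S.θ₀ ^ n * a₀) := by ring
      rw [h3]
      exact h2
  have hlim : Tendsto (fun n : ℕ => S.θ₀ ^ n * a₀) atTop (𝓝 0) := by
    have := (tendsto_pow_atTop_nhds_zero_of_lt_one hθ0 S.θ₀_lt).mul_const a₀
    rwa [zero_mul] at this
  intro t ht
  have h1 : ‖d t‖ ≤ 0 := ge_of_tendsto' hlim fun n => (hiter n t ht).1
  have h2 : ‖e t‖ ≤ 0 := ge_of_tendsto' hlim fun n => (hiter n t ht).2
  have h3 : d t = 0 := norm_le_zero_iff.1 h1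
  have h4 : e t = 0 := norm_le_zero_iff.1 h2
  refine ⟨sub_eq_zero.1 h3, ?_⟩
  have h5 := hpe t
  rw [h3, h4, map_zero, smul_zero, add_zero] at h5
  exact sub_eq_zero.1 h5

end USys

end Vale.Agent.P207.N3.H248
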