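import Vale.Agent.P207.N3.H248.UMan3

/-!
# P207, N3 (P1a): the uniform unstable manifold theorem
-/

open Set Filter Topology Metric
open scoped ContDiff BoundedContinuousFunction

noncomputable section

namespace Vale.Agent.P207.N3.H248

namespace USys

variable {K E : Type} [TopologicalSpace K] [CompactSpace K] [FirstCountableTopology K]
  [NormedAddCommGroup E] [NormedSpace ℝ E] [FiniteDimensional ℝ E] (S : USys K E)

/-- The slope `g x u = u'(0)` of the solutions which stay small in the past. -/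
structure Slope (ε δ : ℝ) (g : K → E → E) : Prop where
  ε_pos : 0 < ε
  δ_pos : 0 < δ
  δ_lt : δ < S.ρ
  smooth : ∀ x, ContDiffOn ℝ ∞ (g x) (ball 0 ε)
  cont : ∀ k : ℕ, ContinuousOn (fun p : K × E => iteratedFDeriv ℝ k (g p.1) p.2)
    (univ ×ˢ ball 0 ε)
  zero : ∀ x, g x 0 = 0
  deriv : ∀ x, fderiv ℝ (g x) 0 = S.U x
  /-- existence -/
  exist : ∀ x, ∀ ξ ∈ ball (0 : E) ε, ∃ u p : ℝ → E, u 0 = ξ ∧ p 0 = g x ξ ∧
    (∀ t ≤ 0, HasDerivAt u (p t) t) ∧ (∀ t ≤ 0, HasDerivAt p (S.f (S.φ t x) (u t, p t)) t) ∧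
    ∀ t ≤ 0, ‖(u t, p t)‖ ≤ δ
  /-- uniqueness -/
  uniq : ∀ x, ∀ u p : ℝ → E, S.Sol x δ u p → u 0 ∈ ball (0 : E) ε → p 0 = g x (u 0)
  /-- two small solutions with the same initial point coincide -/
  uniq' : ∀ x, ∀ u₁ p₁ u₂ p₂ : ℝ → E, S.Sol x δ u₁ p₁ → S.Sol x δ u₂ p₂ →
    u₁ 0 = u₂ 0 → ∀ t ≤ 0, u₁ t = u₂ t ∧ p₁ t = p₂ t
  /-- bounds -/
  bound : ∃ C ε', 0 < ε' ∧ ε' ≤ ε ∧ ∀ x, ∀ u p : ℝ → E, S.Sol x δ u p →
    u 0 ∈ ball (0 : E) ε' → ∀ t ≤ 0, ‖(u t, p t)‖ ≤ C * ‖u 0‖ ∧ u t ∈ ball (0 : E) ε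

omit [CompactSpace K] [FirstCountableTopology K] [FiniteDimensional ℝ E] in
/-- a solution restricted to an earlier past -/
theorem Sol.shift (hadd : ∀ s t x, S.φ (s + t) x = S.φ s (S.φ t x)) {x : K} {δ : ℝ}
    {u p : ℝ → E} (h : S.Sol x δ u p) {t : ℝ} (ht : t ≤ 0) :
    S.Sol (S.φ t x) δ (fun s => u (s + t)) (fun s => p (s + t)) := by
  have hm : MapsTo (fun s => s + t) (Iic (0 : ℝ)) (Iic 0) := fun s hs => by
    rw [mem_Iic] at hs ⊢; linarith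
  refine ⟨fun s hs => ?_, fun s hs => ?_, fun s hs => h.hb _ (by linarith)⟩
  · have h1 : HasDerivWithinAt (fun s => u (s + t)) ((1 : ℝ) • p (s + t)) (Iic 0) s :=
      (h.hu (s + t) (by linarith)).scomp s
        ((hasDerivAt_id s).add_const t).hasDerivWithinAt hm
    rwa [one_smul] at h1
  · have h1 : HasDerivWithinAt (fun s => p (s + t))
        ((1 : ℝ) • S.f (S.φ (s + t) x) (u (s + t), p (s + t))) (Iic 0) s :=
      (h.hp (s + t) (by linarith)).scomp s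
        ((hasDerivAt_id s).add_const t).hasDerivWithinAt hm
    rwa [one_smul, hadd] at h1

omit [CompactSpace K] [FirstCountableTopology K] [FiniteDimensional ℝ E] in
theorem Sol.of_hasDerivAt {x : K} {δ : ℝ} {u p : ℝ → E} (hu : ∀ t ≤ 0, HasDerivAt u (p t) t)
    (hp : ∀ t ≤ 0, HasDerivAt p (S.f (S.φ t x) (u t, p t)) t) (hb : ∀ t ≤ 0, ‖(u t, p t)‖ ≤ δ) :
    S.Sol x δ u p :=
  ⟨fun t ht => (hu t ht).hasDerivWithinAt, fun t ht => (hp t ht).hasDerivWithinAt, hb⟩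

/-- **the uniform unstable manifold theorem** -/
theorem exists_slope : ∃ ε δ g, S.Slope ε δ g := by
  obtain ⟨δ₀, hδ₀, huniq₀⟩ := S.exists_uniq
  set δ := min δ₀ (S.ρ / 2) with hδdef
  have hρ := S.ρ_pos
  have hδ : 0 < δ := lt_min hδ₀ (by linarith)
  have hδρ : δ < S.ρ := (min_le_right _ _).trans_lt (by linarith)
  have hmono : ∀ {x : K} {u p : ℝ → E}, S.Sol x δ u p → S.Sol x δ₀ u p := fun h =>
    ⟨h.hu, h.hp, fun t ht => (h.hb t ht).trans (min_le_left _ _)⟩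
  have huniq : ∀ x, ∀ u₁ p₁ u₂ p₂ : ℝ → E, S.Sol x δ u₁ p₁ → S.Sol x δ u₂ p₂ →
      u₁ 0 = u₂ 0 → ∀ t ≤ 0, u₁ t = u₂ t ∧ p₁ t = p₂ t := fun x u₁ p₁ u₂ p₂ h₁ h₂ =>
    huniq₀ x u₁ p₁ u₂ p₂ (hmono h₁) (hmono h₂)
  obtain ⟨ε₀, hε₀, Z, hZ, hZ0, hZs⟩ := S.exists_Z
  obtain ⟨M, hM0, hM⟩ := S.exists_U_bound
  have hep := S.ep_pos
  set D : ℝ := M + 1 + S.ep with hD
  have hD0 : 0 < D := by positivity
  have hZd : HasFDerivAt Z (fderiv ℝ Z 0) 0 := ((hZ.contDiffAt (isOpen_ball.mem_nhds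
    (mem_ball_self hε₀))).differentiableAt (by simp)).hasFDerivAt
  obtain ⟨C, hC⟩ := hZd.isBigO_sub.bound
  have hev1 : ∀ᶠ ξ in 𝓝 (0 : E), ‖Z ξ‖ ≤ max C 0 * ‖ξ‖ := by
    filter_upwards [hC] with ξ hξ
    rw [hZ0, sub_zero, sub_zero] at hξ
    exact hξ.trans (mul_le_mul_of_nonneg_right (le_max_left _ _) (norm_nonneg _))
  have hev2 : ∀ᶠ ξ in 𝓝 (0 : E), max C 0 * ‖ξ‖ * D < δ := by
    have h1 : Continuous fun ξ : E => max C 0 * ‖ξ‖ * D := by fun_prop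
    have h2 := h1.tendsto 0
    rw [norm_zero, mul_zero, zero_mul] at h2
    exact h2.eventually (gt_mem_nhds hδ)
  obtain ⟨r, hr, hrs⟩ := Metric.mem_nhds_iff.1 (hev1.and hev2)
  set ε := min ε₀ r with hε
  have hε0 : 0 < ε := lt_min hε₀ hr
  have hsub : ball (0 : E) ε ⊆ ball 0 ε₀ := ball_subset_ball (min_le_left _ _)
  have hZ' := hZ.mono hsub
  have hZρ : ∀ ξ ∈ ball (0 : E) ε, Z ξ ∈ ball (0 : (K × Tm) →ᵇ (E × E)) S.ρ₁ := fun ξ hξ =>
    (hZs ξ (hsub hξ)).1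
  have hZe : ∀ ξ ∈ ball (0 : E) ε, Z ξ = S.A ξ + S.G (Z ξ) := fun ξ hξ => (hZs ξ (hsub hξ)).2
  have hsm : ∀ ξ ∈ ball (0 : E) ε, ‖Z ξ‖ ≤ max C 0 * ‖ξ‖ ∧ max C 0 * ‖ξ‖ * D < δ := fun ξ hξ =>
    hrs (ball_subset_ball (min_le_right _ _) hξ)
  -- existence with the bound
  have hex : ∀ x, ∀ ξ ∈ ball (0 : E) ε, ∃ u p : ℝ → E, u 0 = ξ ∧ p 0 = S.sl Z x ξ ∧
      (∀ t ≤ 0, HasDerivAt u (p t) t) ∧ (∀ t ≤ 0, HasDerivAt p (S.f (S.φ t x) (u t, p t)) t) ∧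
      ∀ t ≤ 0, ‖(u t, p t)‖ ≤ D * (max C 0 * ‖ξ‖) := by
    intro x ξ hξ
    obtain ⟨u, w, h0, hval, hu, hp, hw⟩ := S.sl_ode hZρ hZe x hξ
    refine ⟨u, fun t => S.U (S.φ t x) (u t) + S.ep • w t, h0, ?_, hu, hp, fun t ht => ?_⟩
    · have h1 := hval 0 le_rfl (x, t0) rfl rfl
      simp only [sl, S.φ_zero, h0, h1]
    · have h1 := hval t ht (x, ⟨t, mem_Iic.2 ht⟩) rfl rfl
      have h2 : ‖(u t, w t)‖ ≤ ‖Z ξ‖ := by
        rw [← h1]; exact (Z ξ).norm_coe_le_norm _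
      have hu1 : ‖u t‖ ≤ ‖Z ξ‖ := (norm_fst_le (u t, w t)).trans h2
      have hw1 : ‖w t‖ ≤ ‖Z ξ‖ := (norm_snd_le (u t, w t)).trans h2
      have h3 := (hsm ξ hξ).1
      refine le_trans ?_ (mul_le_mul_of_nonneg_left h3 hD0.le)
      rw [Prod.norm_def]
      refine max_le ?_ ?_
      · have h4 := norm_nonneg (Z ξ)
        simp only
        nlinarith
      · refine (norm_add_le _ _).trans ?_
        rw [norm_smul, Real.norm_of_nonneg hep.le]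
        have h7 : ‖S.U (S.φ t x) (u t)‖ ≤ M * ‖Z ξ‖ := ((S.U _).le_opNorm _).trans
          (mul_le_mul (hM _) hu1 (norm_nonneg _) hM0)
        have h8 : S.ep * ‖w t‖ ≤ S.ep * ‖Z ξ‖ := mul_le_mul_of_nonneg_left hw1 hep.le
        have h4 := norm_nonneg (Z ξ)
        nlinarith
  have hle : ∀ ξ ∈ ball (0 : E) ε, D * (max C 0 * ‖ξ‖) ≤ δ := fun ξ hξ => by
    have := (hsm ξ hξ).2
    linarith
  refine ⟨ε, δ, S.sl Z, ⟨hε0, hδ, hδρ, fun x => S.sl_smooth hZ' x, fun k => S.sl_cont hZ' k,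
    fun x => S.sl_zero hZ0 x, fun x => S.sl_deriv hε0 hZ' hZ0 hZe x, ?_, ?_, huniq, ?_⟩⟩
  · intro x ξ hξ
    obtain ⟨u, p, h1, h2, h3, h4, h5⟩ := hex x ξ hξ
    exact ⟨u, p, h1, h2, h3, h4, fun t ht => (h5 t ht).trans (hle ξ hξ)⟩
  · intro x u p h hu0
    obtain ⟨v, q, h1, h2, h3, h4, h5⟩ := hex x (u 0) hu0
    have h6 := huniq x u p v q h (Sol.of_hasDerivAt S h3 h4 fun t ht =>
      (h5 t ht).trans (hle _ hu0)) h1.symm 0 le_rfl
    rw [h6.2, h2]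
  · have hε' : ∃ ε' > 0, ε' ≤ ε ∧ D * (max C 0 * ε') < ε := by
      refine ⟨min ε (ε / (2 * (D * max C 0 + 1))), lt_min hε0 (by positivity),
        min_le_left _ _, ?_⟩
      have h1 : min ε (ε / (2 * (D * max C 0 + 1))) ≤ ε / (2 * (D * max C 0 + 1)) :=
        min_le_right _ _
      have h2 : D * (max C 0 * min ε (ε / (2 * (D * max C 0 + 1))))
          ≤ D * (max C 0 * (ε / (2 * (D * max C 0 + 1)))) := by gcongr
      have h3 : 0 ≤ D * max C 0 := by positivity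
      have h4 : D * (max C 0 * (ε / (2 * (D * max C 0 + 1)))) < ε := by
        have h5 : D * (max C 0 * (ε / (2 * (D * max C 0 + 1))))
            = (D * max C 0) / (2 * (D * max C 0 + 1)) * ε := by ring
        rw [h5]
        have h6 : (D * max C 0) / (2 * (D * max C 0 + 1)) < 1 := by
          rw [div_lt_one (by positivity)]
          linarith
        nlinarith
      linarith
    obtain ⟨ε', hε'0, hε'1, hε'2⟩ := hε'
    refine ⟨D * max C 0, ε', hε'0, hε'1, fun x u p h hu0 t ht => ?_⟩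
    have hu0' : u 0 ∈ ball (0 : E) ε := ball_subset_ball hε'1 hu0
    obtain ⟨v, q, h1, h2, h3, h4, h5⟩ := hex x (u 0) hu0'
    have h6 := huniq x u p v q h (Sol.of_hasDerivAt S h3 h4 fun t ht =>
      (h5 t ht).trans (hle _ hu0')) h1.symm t ht
    have h7 := h5 t ht
    rw [← h6.1, ← h6.2] at h7
    refine ⟨by rw [mul_assoc]; exact h7, ?_⟩
    rw [mem_ball_zero_iff] at hu0 ⊢
    have h8 : ‖u t‖ ≤ D * (max C 0 * ‖u 0‖) := (norm_fst_le (u t, p t)).trans h7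
    have h9 : D * (max C 0 * ‖u 0‖) ≤ D * (max C 0 * ε') := by gcongr
    linarith

variable {S} {ε δ : ℝ} {g : K → E → E}

omit [CompactSpace K] [FirstCountableTopology K] [FiniteDimensional ℝ E] in
/-- the leaf is invariant: small solutions satisfy `u' = g (φ t x) u` -/
theorem Slope.invariant (hg : S.Slope ε δ g) (hadd : ∀ s t x, S.φ (s + t) x = S.φ s (S.φ t x))
    {x : K} {u p : ℝ → E} (h : S.Sol x δ u p) {t : ℝ} (ht : t ≤ 0)
    (hu : u t ∈ ball (0 : E) ε) : p t = g (S.φ t x) (u t) := by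
  have h1 := hg.uniq (S.φ t x) _ _ (Sol.shift S hadd h ht) (by simpa using hu)
  simpa using h1

end USys

/-- The bound `U_le` from symmetry and positivity. -/
theorem norm_id_sub_le {E : Type} [NormedAddCommGroup E] [InnerProductSpace ℝ E]
    {U : E →L[ℝ] E} {χ Λ : ℝ} (hsym : ∀ v w, inner ℝ (U v) w = inner ℝ v (U w))
    (hpos : ∀ v, χ * ‖v‖ ^ 2 ≤ inner ℝ (U v) v) (hΛ : ‖U‖ ≤ Λ) (hχ : χ ≤ Λ) :
    ‖Λ • ContinuousLinearMap.id ℝ E - U‖ ≤ Λ - χ := by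
  set T : E →L[ℝ] E := Λ • ContinuousLinearMap.id ℝ E - U with hT
  have hTv : ∀ v, T v = Λ • v - U v := fun v => rfl
  have hTs : ∀ v w, inner ℝ (T v) w = inner ℝ v (T w) := fun v w => by
    rw [hTv, hTv, inner_sub_left, inner_sub_right, hsym, inner_smul_left, inner_smul_right]
    simp
  have hT0 : ∀ v, 0 ≤ inner ℝ (T v) v := fun v => by
    rw [hTv, inner_sub_left, inner_smul_left]
    have h1 : inner ℝ (U v) v ≤ ‖U v‖ * ‖v‖ := real_inner_le_norm _ _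
    have h2 : ‖U v‖ ≤ Λ * ‖v‖ := (U.le_opNorm v).trans
      (mul_le_mul_of_nonneg_right hΛ (norm_nonneg _))
    have h3 : inner ℝ v v = ‖v‖ * ‖v‖ := real_inner_self_eq_norm_mul_norm v
    have h4 := norm_nonneg v
    simp only [conj_trivial]
    rw [h3]
    nlinarith
  have hT1 : ∀ v, inner ℝ (T v) v ≤ (Λ - χ) * ‖v‖ ^ 2 := fun v => by
    rw [hTv, inner_sub_left, inner_smul_left]
    have h3 : inner ℝ v v = ‖v‖ ^ 2 := real_inner_self_eq_norm_sq v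
    simp only [conj_trivial]
    rw [h3]
    have := hpos v
    linarith
  have hd : 0 ≤ Λ - χ := by linarith
  refine ContinuousLinearMap.opNorm_le_bound _ hd fun v => ?_
  -- Cauchy-Schwarz for the positive form of `T`
  have hcs : inner ℝ (T v) (T v) ^ 2 ≤ inner ℝ (T v) v * inner ℝ (T (T v)) (T v) := by
    have h1 : ∀ s : ℝ, 0 ≤ inner ℝ (T (T v)) (T v) * (s * s)
        + 2 * inner ℝ (T v) (T v) * s + inner ℝ (T v) v := by
      intro s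
      have h2 := hT0 (v + s • T v)
      have h3 : inner ℝ (T (T v)) v = inner ℝ (T v) (T v) := hTs _ _
      rw [map_add, map_smul, inner_add_left, inner_add_right, inner_add_right, inner_smul_left,
        inner_smul_right, inner_smul_left, inner_smul_right, h3] at h2
      simp only [conj_trivial] at h2
      linarith
    have h4 := discrim_le_zero h1
    unfold discrim at h4
    nlinarith
  have h5 : inner ℝ (T v) (T v) = ‖T v‖ ^ 2 := real_inner_self_eq_norm_sq _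
  rw [h5] at hcs
  have h6 := hT1 v
  have h7 := hT1 (T v)
  have h8 : (‖T v‖ ^ 2) ^ 2 ≤ ((Λ - χ) * ‖v‖ ^ 2) * ((Λ - χ) * ‖T v‖ ^ 2) :=
    hcs.trans (mul_le_mul h6 h7 (hT0 _) (by positivity))
  by_cases h0 : ‖T v‖ = 0
  · rw [h0]; positivity
  · have h9 : 0 < ‖T v‖ := lt_of_le_of_ne (norm_nonneg _) (Ne.symm h0)
    have h10 : ‖T v‖ ^ 2 ≤ ((Λ - χ) * ‖v‖) ^ 2 := by
      have h11 : ‖T v‖ ^ 2 * ‖T v‖ ^ 2 ≤ ((Λ - χ) * ‖v‖) ^ 2 * ‖T v‖ ^ 2 := by nlinarith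
      exact le_of_mul_le_mul_right h11 (by positivity)
    exact le_of_sq_le_sq h10 (by positivity)

end Vale.Agent.P207.N3.H248
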